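import Vale.Agent.P004.H253.TwDefs
import Vale.Agent.P004.I1

/-!
# P004: the decomposition `n_i = r_i d_i s_i` for double sums
-/

open Real MeasureTheory Set
open scoped ENNReal

namespace P004

namespace Tw

lemma sq_cop {R r d s : ℕ} (hrR : r ∣ R) (hd : Squarefree d) (hdr : d.Coprime r) (hdR : d ∣ R)
    (hs : Squarefree s) (hsR : s.Coprime R) : Squarefree (d * s) ∧ (d * s).Coprime r := by
  have h1 : Nat.Coprime d s := (Nat.Coprime.coprime_dvd_right hdR hsR).symm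
  exact ⟨(Nat.squarefree_mul h1).2 ⟨hd, hs⟩,
    Nat.Coprime.mul_left hdr (Nat.Coprime.coprime_dvd_right hrR hsR)⟩

lemma gcd_ds {R d s : ℕ} (hdR : d ∣ R) (hsR : s.Coprime R) : Nat.gcd (d * s) R = d := by
  rw [Nat.Coprime.gcd_mul_right_cancel d hsR]
  exact Nat.gcd_eq_left hdR

lemma ds_unique {R d s d' s' : ℕ} (hd : Squarefree d) (hdR : d ∣ R) (hsR : s.Coprime R)
    (hdR' : d' ∣ R) (hsR' : s'.Coprime R) (h : d * s = d' * s') : d = d' ∧ s = s' := by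
  have h1 : d = d' := by rw [← gcd_ds hdR hsR, h, gcd_ds hdR' hsR']
  subst h1
  exact ⟨rfl, Nat.eq_of_mul_eq_mul_left (Nat.pos_of_ne_zero hd.ne_zero) h⟩

lemma ds_exists {r k : ℕ} (R : ℕ) (hk : Squarefree k) (hc : k.Coprime r) :
    ∃ d s : ℕ, Squarefree d ∧ d.Coprime r ∧ d ∣ R ∧ Squarefree s ∧ s.Coprime R ∧ d * s = k := by
  have h1 : Nat.gcd k R ∣ k := Nat.gcd_dvd_left k R
  obtain ⟨s, hs⟩ := h1
  have hsk : s ∣ k := ⟨Nat.gcd k R, by rw [mul_comm]; exact hs⟩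
  have hsq : Squarefree (Nat.gcd k R * s) := by rw [← hs]; exact hk
  have hcop : Nat.Coprime (Nat.gcd k R) s := Nat.coprime_of_squarefree_mul hsq
  refine ⟨Nat.gcd k R, s, hk.squarefree_of_dvd (Nat.gcd_dvd_left k R),
    Nat.Coprime.coprime_dvd_left (Nat.gcd_dvd_left k R) hc, Nat.gcd_dvd_right k R,
    hk.squarefree_of_dvd hsk, ?_, hs.symm⟩
  have h2 : Nat.gcd s R ∣ Nat.gcd k R :=
    Nat.dvd_gcd ((Nat.gcd_dvd_left s R).trans hsk) (Nat.gcd_dvd_right s R)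
  have h3 : Nat.gcd s R ∣ Nat.gcd (Nat.gcd k R) s := Nat.dvd_gcd h2 (Nat.gcd_dvd_left s R)
  rw [hcop] at h3
  exact Nat.dvd_one.1 h3

/-- the decomposition `n_i = r_i d_i s_i` -/
theorem pfDecII : StDecII := by
  classical
  intro t ht F hF h0
  set S : Set (((Pw × Pw) × (ℕ × ℕ)) × (ℕ × ℕ)) :=
    {q | Cd t q.1 ∧ Cs (t * q.1.1.1 * q.1.1.2) q.2} with hS
  set G : ((Pw × Pw) × (ℕ × ℕ)) × (ℕ × ℕ) → ℝ :=
    fun q => F (q.1.1.1 * q.1.2.1 * q.2.1, q.1.1.2 * q.1.2.2 * q.2.2) with hG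
  set g : S → ℕ × ℕ := fun q => (q.1.1.1.1 * q.1.1.2.1 * q.1.2.1, q.1.1.1.2 * q.1.1.2.2 * q.1.2.2)
    with hg
  have hinj : Function.Injective g := by
    rintro ⟨⟨⟨⟨⟨r₁, hr₁⟩, ⟨r₂, hr₂⟩⟩, ⟨d₁, d₂⟩⟩, ⟨s₁, s₂⟩⟩, hq⟩
      ⟨⟨⟨⟨⟨r₁', hr₁'⟩, ⟨r₂', hr₂'⟩⟩, ⟨d₁', d₂'⟩⟩, ⟨s₁', s₂'⟩⟩, hq'⟩ h
    simp only [hS, Cd, Cs, Set.mem_ofPred_eq] at hq hq'
    obtain ⟨⟨⟨hd1, hdr1, hdR1⟩, ⟨hd2, hdr2, hdR2⟩⟩, ⟨hs1, hsR1⟩, ⟨hs2, hsR2⟩⟩ := hq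
    obtain ⟨⟨⟨hd1', hdr1', hdR1'⟩, ⟨hd2', hdr2', hdR2'⟩⟩, ⟨hs1', hsR1'⟩, ⟨hs2', hsR2'⟩⟩ := hq'
    simp only [hg, Prod.mk.injEq] at h
    obtain ⟨h1, h2⟩ := h
    have e1 : r₁ ∣ t * r₁ * r₂ := ⟨t * r₂, by ring⟩
    have e2 : r₂ ∣ t * r₁ * r₂ := ⟨t * r₁, by ring⟩
    have e1' : r₁' ∣ t * r₁' * r₂' := ⟨t * r₂', by ring⟩
    have e2' : r₂' ∣ t * r₁' * r₂' := ⟨t * r₁', by ring⟩
    obtain ⟨a1, a2⟩ := sq_cop e1 hd1 hdr1 hdR1 hs1 hsR1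
    obtain ⟨b1, b2⟩ := sq_cop e2 hd2 hdr2 hdR2 hs2 hsR2
    obtain ⟨a1', a2'⟩ := sq_cop e1' hd1' hdr1' hdR1' hs1' hsR1'
    obtain ⟨b1', b2'⟩ := sq_cop e2' hd2' hdr2' hdR2' hs2' hsR2'
    rw [mul_assoc, mul_assoc] at h1 h2
    obtain ⟨c1, c2⟩ := I1Mod.decomp_unique hr₁ a1 a2 hr₁' a1' a2' h1
    obtain ⟨c3, c4⟩ := I1Mod.decomp_unique hr₂ b1 b2 hr₂' b1' b2' h2
    subst c1; subst c3
    obtain ⟨f1, f2⟩ := ds_unique hd1 hdR1 hsR1 hdR1' hsR1' c2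
    obtain ⟨f3, f4⟩ := ds_unique hd2 hdR2 hsR2 hdR2' hsR2' c4
    subst f1; subst f2; subst f3; subst f4
    rfl
  have hsupp : Function.support F ⊆ Set.range g := by
    rintro ⟨n₁, n₂⟩ hn
    have hn1 : n₁ ≠ 0 := by
      rintro rfl; exact hn (h0 _ (Or.inl rfl))
    have hn2 : n₂ ≠ 0 := by
      rintro rfl; exact hn (h0 _ (Or.inr rfl))
    obtain ⟨r₁, k₁, hr₁, hk₁, hc₁, e₁⟩ := I1Mod.decomp_exists hn1
    obtain ⟨r₂, k₂, hr₂, hk₂, hc₂, e₂⟩ := I1Mod.decomp_exists hn2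
    obtain ⟨d₁, s₁, a1, a2, a3, a4, a5, a6⟩ := ds_exists (t * r₁ * r₂) hk₁ hc₁
    obtain ⟨d₂, s₂, b1, b2, b3, b4, b5, b6⟩ := ds_exists (t * r₁ * r₂) hk₂ hc₂
    refine ⟨⟨⟨⟨⟨⟨r₁, hr₁⟩, ⟨r₂, hr₂⟩⟩, ⟨d₁, d₂⟩⟩, ⟨s₁, s₂⟩⟩,
      ⟨⟨⟨a1, a2, a3⟩, ⟨b1, b2, b3⟩⟩, ⟨⟨a4, a5⟩, ⟨b4, b5⟩⟩⟩⟩, ?_⟩
    simp only [hg, Prod.mk.injEq]
    rw [mul_assoc, a6, mul_assoc, b6]
    exact ⟨e₁, e₂⟩
  have hsumS : Summable (F ∘ g) := hF.comp_injective hinj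
  have hsumI : Summable (S.indicator G) := by
    rw [← summable_subtype_iff_indicator]
    exact hsumS
  have hEq : ∑' p, F p = ∑' i : (Pw × Pw) × (ℕ × ℕ), ∑' s : ℕ × ℕ, S.indicator G (i, s) := by
    calc ∑' p, F p = ∑' q : S, F (g q) := (hinj.tsum_eq hsupp).symm
      _ = ∑' q, S.indicator G q := tsum_subtype S G
      _ = _ := hsumI.tsum_prod
  rw [hEq]
  refine enorm_tsum_le_tsum_enorm.trans (ENNReal.tsum_le_tsum fun i => ?_)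
  by_cases hi : Cd t i
  · rw [if_pos hi]
    refine le_of_eq (congrArg _ (tsum_congr fun s => ?_))
    simp only [Set.indicator, hS, Set.mem_ofPred_eq, hG, hi, true_and]
  · have : ∀ s, S.indicator G (i, s) = 0 := by
      intro s
      apply Set.indicator_of_notMem
      rintro ⟨h, -⟩
      exact hi h
    simp only [this, tsum_zero, enorm_zero]
    exact zero_le

end Tw

end P004
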