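import Vale.Agent.P004.H3.Edge
import Vale.Agent.P004.H503.Iface3

/-!
# P004/H3: `StFull`
-/

namespace P004

theorem pfFull : StFull := H3.pfEdge

end P004
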