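import Vale.Agent.P004.H3.Edge3
import Vale.Agent.P004.A1
import Vale.Agent.P004.B
import Vale.Agent.P004.C
import Vale.Agent.P004.C0
import Vale.Agent.P004.D
import Vale.Agent.P004.D2
import Vale.Agent.P004.E
import Vale.Agent.P004.F
import Vale.Agent.P004.G
import Vale.Agent.P004.H1
import Vale.Agent.P004.H2
import Vale.Agent.P004.H3
import Vale.Agent.P004.H4
import Vale.Agent.P004.H5
import Vale.Agent.P004.I1

/-!
# P004/H3: the full second moment, unconditionally
-/

open Real MeasureTheory Set
open scoped ENNReal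

namespace P004.H3

/-- `∑_{m ≤ X squarefree} ∫ θ_m² u du ≪ X (log X)^A`. -/
theorem pfEdge : StEdge :=
  have hC : StCoef := pfStCoef
  have hD : StDiv := pfDiv
  have hFE : StFE := pfFE
  have hK : StKer := pfKer
  have hAj : StAj := pfAj (pfStSep hC hK) (pfConv hC hD) (pfStFrac hC) hD
  pfEdge_of hC (pfPair (pfPois pfTw)) hK (pfDecomp hC hFE hD) hAj (pfA0 hC hD) (pfTail hK) hD

end P004.H3
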