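import Vale.Agent.P004.H1

/-!
# P004/H3: the square trick, part 1

`theta (p² m) = theta m` up to an Euler factor at `p`; hence the squarefree `m ≤ X` may be replaced
by the larger set of all `p² m`, `p ≤ P` prime, which gains a factor `π(P)` in the positivity step.
-/

open Real MeasureTheory Set
open scoped ENNReal

namespace P004.H3

open P004.H1

theorem chi_sq_mul_of_coprime (m : ℤ) {p n : ℕ} (h : Nat.Coprime p n) :
    chi ((p : ℤ) ^ 2 * m) n = chi m n := by
  unfold chi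
  rw [jacobiSym.mul_left, jacobiSym.sq_one' (by rw [Int.gcd_natCast_natCast]; exact h), one_mul]

theorem chi_sq_mul_of_dvd (m : ℤ) {p n : ℕ} (hp : p.Prime) (hn : n ≠ 0) (h : p ∣ n) :
    chi ((p : ℤ) ^ 2 * m) n = 0 := by
  unfold chi
  rw [jacobiSym.mul_left, jacobiSym.pow_left]
  have h1 : jacobiSym (p : ℤ) n = 0 := by
    rw [jacobiSym.eq_zero_iff]
    refine ⟨hn, fun hc => ?_⟩
    have h2 : p ∣ Int.gcd (p : ℤ) (n : ℤ) := by
      rw [Int.gcd_natCast_natCast]
      exact Nat.dvd_gcd dvd_rfl h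
    rw [hc] at h2
    exact hp.one_lt.ne' (Nat.dvd_one.1 h2)
  rw [h1]
  norm_num

theorem summable_wt_chi (hC : StCoef) (r : ℕ) {u : ℝ} (hu : 0 < u) (m : ℤ) :
    Summable fun n : ℕ => wt r u n * chi m n := by
  have h0 : Summable fun n : ℕ => |wt r u n| := by
    have := summable_wt hC r hu 0
    simpa using this
  refine Summable.of_norm_bounded h0 fun n => ?_
  rw [norm_mul, Real.norm_eq_abs, Real.norm_eq_abs]
  exact mul_le_of_le_one_right (abs_nonneg _) (abs_chi_le _ _)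

/-- removing the Euler factor at `p` -/
theorem Uf_split (hC : StCoef) (m : ℤ) (r : ℕ) {p : ℕ} (hp : p.Prime) {u : ℝ} (hu : 0 < u) :
    Uf m r u = Uf ((p : ℤ) ^ 2 * m) r u +
      (if p ∣ r then 0 else (ca p : ℝ) * chi m p) * Uf ((p : ℤ) ^ 2 * m) r (p * u) := by
  have hp0 : (0 : ℝ) < p := by exact_mod_cast hp.pos
  set f : ℕ → ℝ := fun n => if p ∣ n then wt r u n * chi m n else 0 with hf
  have hsm : Summable fun n : ℕ => wt r u n * chi m n := summable_wt_chi hC r hu m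
  have hfs : Summable f := by
    refine Summable.of_norm_bounded hsm.norm fun n => ?_
    simp only [hf]
    split_ifs
    · exact le_rfl
    · simp only [norm_zero]; positivity
  have h1 : ∀ n : ℕ, wt r u n * chi m n = wt r u n * chi ((p : ℤ) ^ 2 * m) n + f n := by
    intro n
    simp only [hf]
    rcases Nat.eq_zero_or_pos n with rfl | hn
    · simp [wt]
    split_ifs with hd
    · rw [chi_sq_mul_of_dvd m hp hn.ne' hd]; ring
    · rw [chi_sq_mul_of_coprime m ((Nat.Prime.coprime_iff_not_dvd hp).2 hd)]; ring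
  have h2 : Uf m r u = Uf ((p : ℤ) ^ 2 * m) r u + ∑' n, f n := by
    rw [Uf_eq, Uf_eq, ← (summable_wt_chi hC r hu _).tsum_add hfs]
    exact tsum_congr h1
  rw [h2]
  congr 1
  have hinj : Function.Injective fun k : ℕ => p * k := fun a b h =>
    Nat.eq_of_mul_eq_mul_left hp.pos h
  have h3 : ∑' n, f n = ∑' k, f (p * k) := by
    refine (hinj.tsum_eq ?_).symm
    intro n hn
    rw [Function.mem_support] at hn
    simp only [hf] at hn
    by_cases hd : p ∣ n
    · obtain ⟨k, rfl⟩ := hd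
      exact ⟨k, rfl⟩
    · rw [if_neg hd] at hn
      exact absurd rfl hn
  rw [h3, Uf_eq, ← tsum_mul_left]
  refine tsum_congr fun k => ?_
  simp only [hf]
  rw [if_pos (dvd_mul_right p k)]
  rcases Nat.eq_zero_or_pos k with rfl | hk
  · simp [wt]
  by_cases hpk : p ∣ k
  · have e1 : wt r u (p * k) = 0 := by
      unfold wt
      rw [if_neg]
      rintro ⟨hs, _⟩
      obtain ⟨l, rfl⟩ := hpk
      have := hs p ⟨l, by ring⟩
      exact hp.one_lt.ne' (Nat.isUnit_iff.1 this)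
    rw [e1, chi_sq_mul_of_dvd m hp hk.ne' hpk]
    simp
  · have hcop : Nat.Coprime p k := (Nat.Prime.coprime_iff_not_dvd hp).2 hpk
    rw [chi_sq_mul_of_coprime m hcop, H1.chi_mul m hp.ne_zero hk.ne']
    by_cases hpr : p ∣ r
    · have e1 : wt r u (p * k) = 0 := by
        unfold wt
        rw [if_neg]
        rintro ⟨_, hc⟩
        have h4 : p ∣ Nat.gcd (p * k) r := Nat.dvd_gcd (dvd_mul_right p k) hpr
        rw [hc] at h4
        exact hp.one_lt.ne' (Nat.dvd_one.1 h4)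
      rw [e1, if_pos hpr]
      simp
    · rw [if_neg hpr]
      have hpr' : Nat.Coprime p r := (Nat.Prime.coprime_iff_not_dvd hp).2 hpr
      unfold wt
      by_cases hc : Squarefree k ∧ k.Coprime r
      · have hc' : Squarefree (p * k) ∧ (p * k).Coprime r := by
          refine ⟨?_, Nat.Coprime.mul_left hpr' hc.2⟩
          rw [Nat.squarefree_mul hcop]
          exact ⟨hp.squarefree, hc.1⟩
        rw [if_pos hc, if_pos hc', hC.mul p k hcop]
        push_cast
        have e : -π * ((p : ℝ) * (k : ℝ)) * u = -π * (k : ℝ) * ((p : ℝ) * u) := by ring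
        rw [e]
        ring
      · have hc' : ¬ (Squarefree (p * k) ∧ (p * k).Coprime r) := by
          rintro ⟨h4, h5⟩
          apply hc
          refine ⟨h4.squarefree_of_dvd (dvd_mul_left k p), ?_⟩
          exact Nat.Coprime.coprime_dvd_left (dvd_mul_left k p) h5
        rw [if_neg hc, if_neg hc']
        ring

theorem measurable_Uf (m : ℤ) (r : ℕ) : Measurable fun u => Uf m r u := by
  unfold Uf
  refine Measurable.tsum fun n => ?_
  split_ifs
  · fun_prop
  · exact measurable_const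

/-- scaling on a half line -/
theorem lintegral_scale_Ioi (F : ℝ → ℝ≥0∞) {a c : ℝ} (ha : 0 ≤ a) (hc : 1 ≤ c) :
    ENNReal.ofReal c * ∫⁻ u in Ioi a, F (c * u) ≤ ∫⁻ u in Ioi a, F u := by
  have hc0 : 0 < c := by linarith
  have himage : (fun u : ℝ => c * u) '' (Ioi a) = Ioi (c * a) := by
    rw [Set.image_mul_left_Ioi hc0]
  have hder : ∀ w ∈ Ioi a, HasDerivWithinAt (fun u : ℝ => c * u) c (Ioi a) w := by
    intro w _
    have := ((hasDerivAt_id w).const_mul c).hasDerivWithinAt (s := Ioi a)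
    simpa using this
  have hinj : Set.InjOn (fun u : ℝ => c * u) (Ioi a) := (mul_right_injective₀ hc0.ne').injOn
  have hcv := lintegral_image_eq_lintegral_abs_deriv_mul measurableSet_Ioi hder hinj F
  rw [himage, abs_of_pos hc0] at hcv
  rw [← lintegral_const_mul' _ _ ENNReal.ofReal_ne_top, ← hcv]
  exact lintegral_mono_set (Ioi_subset_Ioi (by nlinarith))

/-- the square trick for one `m` -/
theorem sq_trick (hC : StCoef) (m : ℤ) (r : ℕ) {p : ℕ} (hp : p.Prime) {θ a : ℝ} (hθ : 0 ≤ θ)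
    (ha : 0 ≤ a) :
    ∫⁻ u in Ioi a, ENNReal.ofReal (Uf m r u ^ 2 * u ^ (1 + 2 * θ)) ≤
      6 * ∫⁻ u in Ioi a, ENNReal.ofReal (Uf ((p : ℤ) ^ 2 * m) r u ^ 2 * u ^ (1 + 2 * θ)) := by
  have hp1 : (1 : ℝ) ≤ p := by exact_mod_cast hp.one_lt.le
  have hp2 : (2 : ℝ) ≤ p := by exact_mod_cast hp.two_le
  have hp0 : (0 : ℝ) < p := by linarith
  set V : ℝ → ℝ := fun u => Uf ((p : ℤ) ^ 2 * m) r u with hV
  set F : ℝ → ℝ≥0∞ := fun u => ENNReal.ofReal (V u ^ 2 * u ^ (1 + 2 * θ)) with hF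
  have hVm : Measurable V := measurable_Uf _ _
  have hFm : Measurable F := by
    apply ENNReal.measurable_ofReal.comp
    exact (hVm.pow_const 2).mul (measurable_id.pow_const _)
  have hdv : dv p = 2 := by
    unfold dv
    rw [hp.divisors, Finset.card_pair hp.one_lt.ne]
    norm_num
  have hb : |(ca p : ℝ)| ≤ 2 * √(p : ℝ) := by
    have := hC.bound p
    rwa [hdv] at this
  have hb2 : ((if p ∣ r then 0 else (ca p : ℝ) * chi m p)) ^ 2 ≤ 4 * p := by
    split_ifs
    · simp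
    · have h1 : (ca p : ℝ) ^ 2 ≤ 4 * p := by
        rw [← sq_abs]
        calc |(ca p : ℝ)| ^ 2 ≤ (2 * √(p : ℝ)) ^ 2 := pow_le_pow_left₀ (abs_nonneg _) hb 2
          _ = 4 * p := by rw [mul_pow, Real.sq_sqrt hp0.le]; norm_num
      have h2 : chi m p ^ 2 ≤ 1 := by
        rw [← sq_abs]
        have := H1.abs_chi_le m p
        nlinarith [abs_nonneg (chi m p)]
      rw [mul_pow]
      calc (ca p : ℝ) ^ 2 * chi m p ^ 2 ≤ (4 * p) * 1 := by
            apply mul_le_mul h1 h2 (sq_nonneg _) (by positivity)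
        _ = 4 * p := by ring
  have hpt : ∀ u ∈ Ioi a, ENNReal.ofReal (Uf m r u ^ 2 * u ^ (1 + 2 * θ)) ≤
      2 * F u + 8 * F (p * u) := by
    intro u hu
    have hu0 : 0 < u := lt_of_le_of_lt ha hu
    have hpw : (0 : ℝ) ≤ u ^ (1 + 2 * θ) := by positivity
    have e : (2 : ℝ≥0∞) = ENNReal.ofReal 2 := by simp
    have e8 : (8 : ℝ≥0∞) = ENNReal.ofReal 8 := by simp
    simp only [hF]
    rw [e, e8, ← ENNReal.ofReal_mul (by norm_num), ← ENNReal.ofReal_mul (by norm_num),
      ← ENNReal.ofReal_add (by positivity) (by positivity)]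
    apply ENNReal.ofReal_le_ofReal
    rw [Uf_split hC m r hp hu0]
    set b : ℝ := if p ∣ r then 0 else (ca p : ℝ) * chi m p with hbdef
    have h1 : (V u + b * V (p * u)) ^ 2 ≤ 2 * V u ^ 2 + 2 * (4 * p) * V (p * u) ^ 2 := by
      have h2 : b ^ 2 * V (p * u) ^ 2 ≤ (4 * p) * V (p * u) ^ 2 :=
        mul_le_mul_of_nonneg_right hb2 (sq_nonneg _)
      nlinarith [sq_nonneg (V u - b * V (p * u))]
    have h3 : u ^ (1 + 2 * θ) * p ≤ ((p : ℝ) * u) ^ (1 + 2 * θ) := by
      rw [Real.mul_rpow hp0.le hu0.le, mul_comm]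
      have h4 : (p : ℝ) ≤ (p : ℝ) ^ (1 + 2 * θ) := by
        calc (p : ℝ) = (p : ℝ) ^ (1 : ℝ) := (Real.rpow_one _).symm
          _ ≤ _ := Real.rpow_le_rpow_of_exponent_le hp1 (by linarith)
      gcongr
    calc (V u + b * V (p * u)) ^ 2 * u ^ (1 + 2 * θ)
        ≤ (2 * V u ^ 2 + 2 * (4 * p) * V (p * u) ^ 2) * u ^ (1 + 2 * θ) := by gcongr
      _ = 2 * (V u ^ 2 * u ^ (1 + 2 * θ)) +
          8 * (V (p * u) ^ 2 * (u ^ (1 + 2 * θ) * p)) := by ring
      _ ≤ 2 * (V u ^ 2 * u ^ (1 + 2 * θ)) +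
          8 * (V (p * u) ^ 2 * ((p : ℝ) * u) ^ (1 + 2 * θ)) := by gcongr
  have hscale := lintegral_scale_Ioi F ha hp1
  have hF2 : Measurable fun u : ℝ => F ((p : ℝ) * u) := hFm.comp (measurable_const_mul _)
  calc ∫⁻ u in Ioi a, ENNReal.ofReal (Uf m r u ^ 2 * u ^ (1 + 2 * θ))
      ≤ ∫⁻ u in Ioi a, (2 * F u + 8 * F (p * u)) := setLIntegral_mono' measurableSet_Ioi hpt
    _ = (2 * ∫⁻ u in Ioi a, F u) + (8 * ∫⁻ u in Ioi a, F (p * u)) := by
        rw [lintegral_add_left (hFm.const_mul _), lintegral_const_mul _ hFm,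
          lintegral_const_mul _ hF2]
    _ ≤ (2 * ∫⁻ u in Ioi a, F u) + (4 * ∫⁻ u in Ioi a, F u) := by
        refine add_le_add le_rfl ?_
        calc (8 * ∫⁻ u in Ioi a, F (p * u)) = 4 * (2 * ∫⁻ u in Ioi a, F (p * u)) := by
              rw [← mul_assoc]; norm_num
          _ ≤ 4 * (ENNReal.ofReal p * ∫⁻ u in Ioi a, F (p * u)) := by
              gcongr
              rw [show (2 : ℝ≥0∞) = ENNReal.ofReal 2 by simp]
              exact ENNReal.ofReal_le_ofReal hp2
          _ ≤ 4 * ∫⁻ u in Ioi a, F u := by gcongr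
    _ = 6 * ∫⁻ u in Ioi a, F u := by
        rw [← add_mul]; norm_num

end P004.H3
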