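import Vale.Agent.P004.H3.Edge1
import Vale.Agent.P004.I2

/-!
# P004/H3: the square trick, part 2: the recursion with the gain `π(P)`
-/

open Real MeasureTheory Set
open scoped ENNReal

namespace P004.H3

open P004.H1

/-- the positivity step for an arbitrary finite set of positive integers `≤ H` -/
theorem sumS_gen (hC : StCoef) (hP : StPair) (hK : StKer) :
    ∃ C : ℝ, 0 < C ∧ ∀ (S : Finset ℕ) (r : ℕ) (H u : ℝ), 0 < H → (∀ m ∈ S, (m : ℝ) ≤ H) → 0 < u →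
      ENNReal.ofReal (∑ m ∈ S, Uf m r u ^ 2) ≤
        ENNReal.ofReal (C * H) * (ENNReal.ofReal |Aj H r 0 u| +
          ∑' j : ℕ, ENNReal.ofReal |Aj H r (j + 1) u|) := by
  refine ⟨2 / c0, by have := c0_pos; positivity, fun S r H u hH hS hu => ?_⟩
  have hc := c0_pos
  have hW : ∀ h : ℤ, Uf h r u ^ 2 ≤ (∑' n, |wt r u n|) ^ 2 := by
    intro h
    have h0 : Summable fun n : ℕ => |wt r u n| := by
      have := summable_wt hC r hu 0
      simpa using this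
    have h1 : |Uf h r u| ≤ ∑' n, |wt r u n| := by
      rw [Uf_eq]
      have h2 : ∀ n, ‖wt r u n * chi h n‖ ≤ |wt r u n| := fun n => by
        rw [norm_mul, Real.norm_eq_abs, Real.norm_eq_abs]
        exact mul_le_of_le_one_right (abs_nonneg _) (abs_chi_le _ _)
      exact tsum_of_norm_bounded h0.hasSum h2
    rw [← sq_abs (Uf h r u)]
    exact pow_le_pow_left₀ (abs_nonneg _) h1 2
  have hsum : Summable fun h : ℤ => ah H h * Uf h r u ^ 2 := by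
    refine Summable.of_nonneg_of_le (fun h => mul_nonneg (ah_nonneg H h) (sq_nonneg _))
      (fun h => mul_le_mul_of_nonneg_left (hW h) (ah_nonneg H h))
      ((summable_ah hH).mul_right _)
  have hlow : c0 * ∑ m ∈ S, Uf m r u ^ 2 ≤ ∑' h : ℤ, ah H h * Uf h r u ^ 2 := by
    rw [Finset.mul_sum]
    have h1 : ∑ m ∈ S, c0 * Uf m r u ^ 2 ≤ ∑ m ∈ S, ah H (m : ℤ) * Uf m r u ^ 2 := by
      refine Finset.sum_le_sum fun m hm => ?_
      refine mul_le_mul_of_nonneg_right ?_ (sq_nonneg _)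
      exact c0_le hH (hS m hm)
    refine h1.trans ?_
    have h2 : ∑ m ∈ S, ah H (m : ℤ) * Uf m r u ^ 2 =
        ∑ h ∈ S.map ⟨fun n : ℕ => (n : ℤ), Nat.cast_injective⟩, ah H h * Uf h r u ^ 2 := by
      rw [Finset.sum_map]
      rfl
    rw [h2]
    exact hsum.sum_le_tsum _ fun h _ => mul_nonneg (ah_nonneg H h) (sq_nonneg _)
  rw [S_eq hC hP hK hH r hu, tsum_congr (Aj_eq hC H r u)] at hlow
  have habs : ENNReal.ofReal (∑' j : ℤ, Aj H r j u) ≤ ∑' j : ℤ, ENNReal.ofReal |Aj H r j u| := by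
    by_cases hs : Summable fun j : ℤ => |Aj H r j u|
    · rw [← ENNReal.ofReal_tsum_of_nonneg (fun j => abs_nonneg _) hs]
      refine ENNReal.ofReal_le_ofReal ?_
      refine Summable.tsum_le_tsum (fun j => le_abs_self _) ?_ hs
      exact Summable.of_abs hs
    · have : ¬ Summable fun j : ℤ => Aj H r j u := fun h => hs h.abs
      rw [tsum_eq_zero_of_not_summable this]
      simp
  have h1 : ENNReal.ofReal (∑ m ∈ S, Uf m r u ^ 2) ≤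
      ENNReal.ofReal (H / c0) * ENNReal.ofReal (∑' j : ℤ, Aj H r j u) := by
    rw [← ENNReal.ofReal_mul (by positivity)]
    refine ENNReal.ofReal_le_ofReal ?_
    rw [div_mul_eq_mul_div, le_div_iff₀ hc]
    linarith
  calc ENNReal.ofReal (∑ m ∈ S, Uf m r u ^ 2) ≤
        ENNReal.ofReal (H / c0) * ENNReal.ofReal (∑' j : ℤ, Aj H r j u) := h1
    _ ≤ ENNReal.ofReal (H / c0) * (2 * (ENNReal.ofReal |Aj H r 0 u| +
        ∑' j : ℕ, ENNReal.ofReal |Aj H r (j + 1) u|)) := by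
        gcongr
        exact habs.trans (tsum_abs_Aj hC H r u)
    _ = ENNReal.ofReal (2 / c0 * H) * (ENNReal.ofReal |Aj H r 0 u| +
        ∑' j : ℕ, ENNReal.ofReal |Aj H r (j + 1) u|) := by
        rw [← mul_assoc]
        congr 1
        rw [show (2 : ENNReal) = ENNReal.ofReal 2 by simp, ← ENNReal.ofReal_mul (by positivity)]
        congr 1
        ring

open I2Mod in
/-- the positivity step integrated -/
theorem int_le_gen {Cs : ℝ}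
    (hS : ∀ (S : Finset ℕ) (r : ℕ) (H u : ℝ), 0 < H → (∀ m ∈ S, (m : ℝ) ≤ H) → 0 < u →
      ENNReal.ofReal (∑ m ∈ S, Uf m r u ^ 2) ≤
        ENNReal.ofReal (Cs * H) * (ENNReal.ofReal |Aj H r 0 u| +
          ∑' j : ℕ, ENNReal.ofReal |Aj H r (j + 1) u|))
    (S : Finset ℕ) (r : ℕ) (H θ a : ℝ) (hH : 0 < H) (hSH : ∀ m ∈ S, (m : ℝ) ≤ H) (ha : 0 ≤ a) :
    ∑ m ∈ S, ∫⁻ u in Ioi a, ENNReal.ofReal (Uf m r u ^ 2 * u ^ (1 + 2 * θ)) ≤
      ENNReal.ofReal (Cs * H) * (TI H θ a r 0 + ∑' j : ℕ, TI H θ a r (j + 1)) := by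
  have hm : ∀ j : ℤ, Measurable fun u : ℝ => ENNReal.ofReal (|Aj H r j u| * u ^ (1 + 2 * θ)) := by
    intro j
    apply ENNReal.measurable_ofReal.comp
    apply Measurable.mul
    · exact (measurable_Aj H r j).abs
    · exact measurable_id.pow_const _
  have hUm : ∀ m : ℕ, Measurable fun u : ℝ =>
      ENNReal.ofReal (Uf m r u ^ 2 * u ^ (1 + 2 * θ)) := by
    intro m
    apply ENNReal.measurable_ofReal.comp
    exact ((measurable_Uf _ _).pow_const 2).mul (measurable_id.pow_const _)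
  rw [← lintegral_finsetSum _ fun m _ => hUm m]
  calc ∫⁻ u in Ioi a, ∑ m ∈ S, ENNReal.ofReal (Uf m r u ^ 2 * u ^ (1 + 2 * θ))
      ≤ ∫⁻ u in Ioi a, ENNReal.ofReal (Cs * H) *
          (ENNReal.ofReal (|Aj H r 0 u| * u ^ (1 + 2 * θ)) +
            ∑' j : ℕ, ENNReal.ofReal (|Aj H r (j + 1) u| * u ^ (1 + 2 * θ))) := by
        apply setLIntegral_mono' measurableSet_Ioi
        intro u hu
        have hu0 : 0 < u := lt_of_le_of_lt ha hu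
        have h := hS S r H u hH hSH hu0
        have hpow : (0 : ℝ) ≤ u ^ (1 + 2 * θ) := by positivity
        have e : ∑ m ∈ S, ENNReal.ofReal (Uf m r u ^ 2 * u ^ (1 + 2 * θ)) =
            ENNReal.ofReal (∑ m ∈ S, Uf m r u ^ 2) * ENNReal.ofReal (u ^ (1 + 2 * θ)) := by
          rw [← ENNReal.ofReal_mul' hpow, Finset.sum_mul,
            ENNReal.ofReal_sum_of_nonneg fun m _ => by positivity]
        rw [e]
        calc ENNReal.ofReal (∑ m ∈ S, Uf m r u ^ 2) * ENNReal.ofReal (u ^ (1 + 2 * θ))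
            ≤ (ENNReal.ofReal (Cs * H) * (ENNReal.ofReal |Aj H r 0 u| +
                ∑' j : ℕ, ENNReal.ofReal |Aj H r (j + 1) u|)) *
                  ENNReal.ofReal (u ^ (1 + 2 * θ)) := by gcongr
          _ = _ := by
            rw [mul_assoc, add_mul, ← ENNReal.tsum_mul_right]
            congr 2
            · rw [ENNReal.ofReal_mul' hpow]
            · refine tsum_congr fun j => ?_
              rw [ENNReal.ofReal_mul' hpow]
    _ = ENNReal.ofReal (Cs * H) * (TI H θ a r 0 + ∑' j : ℕ, TI H θ a r (j + 1)) := by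
        have hm2 : Measurable fun u : ℝ => ∑' j : ℕ,
            ENNReal.ofReal (|Aj H r (j + 1) u| * u ^ (1 + 2 * θ)) :=
          Measurable.tsum fun j : ℕ => hm (j + 1)
        have hm3 : Measurable fun u : ℝ => ENNReal.ofReal (|Aj H r 0 u| * u ^ (1 + 2 * θ)) +
            ∑' j : ℕ, ENNReal.ofReal (|Aj H r (j + 1) u| * u ^ (1 + 2 * θ)) := (hm 0).add hm2
        rw [lintegral_const_mul _ hm3, lintegral_add_left (hm 0),
          lintegral_tsum fun j : ℕ => (hm (j + 1)).aemeasurable]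
        rfl

/-- the primes up to `P` -/
def prs (P : ℕ) : Finset ℕ := (Finset.range (P + 1)).filter Nat.Prime

theorem sq_mul_inj {p q m n : ℕ} (hp : p.Prime) (hq : q.Prime) (hm : Squarefree m)
    (hn : Squarefree n) (h : p ^ 2 * m = q ^ 2 * n) : p = q ∧ m = n := by
  have hpq : p = q := by
    by_contra hne
    have hcop : Nat.Coprime (p ^ 2) (q ^ 2) :=
      Nat.Coprime.pow 2 2 ((Nat.coprime_primes hp hq).2 hne)
    have h1 : p ^ 2 ∣ n := by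
      have : p ^ 2 ∣ q ^ 2 * n := ⟨m, h.symm⟩
      exact hcop.dvd_of_dvd_mul_left this
    have h2 := hn p (by rw [← sq]; exact h1)
    exact hp.one_lt.ne' (Nat.isUnit_iff.1 h2)
  subst hpq
  exact ⟨rfl, Nat.eq_of_mul_eq_mul_left (pow_pos hp.pos 2) h⟩

/-- the square trick: gain of a factor `π(P)` -/
theorem gain (hC : StCoef) (X P r : ℕ) {θ a : ℝ} (hθ : 0 ≤ θ) (ha : 0 ≤ a) :
    ((prs P).card : ℝ≥0∞) * ∑ m ∈ sqf X, ∫⁻ u in Ioi a,
        ENNReal.ofReal (Uf m r u ^ 2 * u ^ (1 + 2 * θ)) ≤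
      6 * ∑ M ∈ ((prs P) ×ˢ (sqf X)).image (fun t : ℕ × ℕ => t.1 ^ 2 * t.2),
        ∫⁻ u in Ioi a, ENNReal.ofReal (Uf M r u ^ 2 * u ^ (1 + 2 * θ)) := by
  have himg : ∑ M ∈ ((prs P) ×ˢ (sqf X)).image (fun t : ℕ × ℕ => t.1 ^ 2 * t.2),
        ∫⁻ u in Ioi a, ENNReal.ofReal (Uf M r u ^ 2 * u ^ (1 + 2 * θ)) =
      ∑ p ∈ prs P, ∑ m ∈ sqf X, ∫⁻ u in Ioi a,
        ENNReal.ofReal (Uf ((p ^ 2 * m : ℕ) : ℤ) r u ^ 2 * u ^ (1 + 2 * θ)) := by
    rw [Finset.sum_image, Finset.sum_product]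
    intro x hx y hy hxy
    simp only [Finset.coe_product, Set.mem_prod, Finset.mem_coe, prs, sqf, Finset.mem_filter] at hx hy
    have := sq_mul_inj hx.1.2 hy.1.2 hx.2.2 hy.2.2 hxy
    exact Prod.ext this.1 this.2
  rw [himg]
  calc ((prs P).card : ℝ≥0∞) * ∑ m ∈ sqf X, ∫⁻ u in Ioi a,
        ENNReal.ofReal (Uf m r u ^ 2 * u ^ (1 + 2 * θ))
      = ∑ p ∈ prs P, ∑ m ∈ sqf X, ∫⁻ u in Ioi a,
        ENNReal.ofReal (Uf m r u ^ 2 * u ^ (1 + 2 * θ)) := by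
        rw [Finset.sum_const, nsmul_eq_mul]
    _ ≤ ∑ p ∈ prs P, 6 * ∑ m ∈ sqf X, ∫⁻ u in Ioi a,
        ENNReal.ofReal (Uf ((p ^ 2 * m : ℕ) : ℤ) r u ^ 2 * u ^ (1 + 2 * θ)) := by
        refine Finset.sum_le_sum fun p hp => ?_
        rw [Finset.mul_sum]
        refine Finset.sum_le_sum fun m _ => ?_
        have hpp : p.Prime := (Finset.mem_filter.1 hp).2
        have := sq_trick hC m r hpp hθ ha
        push_cast
        exact this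
    _ = _ := by rw [← Finset.mul_sum]

open I2Mod in
/-- the bound for one `r` -/
theorem key_gain (hC : StCoef) {Cs0 Ca C0 C₁ Cv E1 : ℝ} {Aa A0 Av : ℕ} (hCs0 : 0 < Cs0)
    (hCa : 0 < Ca) (hC0 : 0 < C0) (hCv : 0 < Cv) (hE1pos : 0 < E1)
    (hS : ∀ (S : Finset ℕ) (r : ℕ) (H u : ℝ), 0 < H → (∀ m ∈ S, (m : ℝ) ≤ H) → 0 < u →
      ENNReal.ofReal (∑ m ∈ S, Uf m r u ^ 2) ≤
        ENNReal.ofReal (Cs0 * H) * (ENNReal.ofReal |Aj H r 0 u| +
          ∑' j : ℕ, ENNReal.ofReal |Aj H r (j + 1) u|))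
    (hA : ∀ θ : ℝ, 0 < θ → θ ≤ 1 / 8 → ∀ (H : ℝ) (r j₁ j₂ : ℕ), 0 < H →
      0 < r → Squarefree j₁ → 0 < j₂ →
      ∫⁻ u in Ioi (0 : ℝ), ENNReal.ofReal (|Aj H r ((j₁ * j₂ ^ 2 : ℕ) : ℤ) u| * u ^ (1 + 2 * θ)) ≤
        ENNReal.ofReal (Ca * (1 / θ) ^ Aa * dv r ^ Aa * dv j₂ ^ Aa *
          (((j₁ * j₂ ^ 2 : ℕ) : ℝ) * H) ^ (-1 / 2 + θ)) * (Jm j₁ + 1))
    (h0 : ∀ θ : ℝ, 0 < θ → θ ≤ 1 / 8 → ∀ (H : ℝ) (r : ℕ), 0 < H → 0 < r →
      ∫⁻ u in Ioi (0 : ℝ), ENNReal.ofReal (|Aj H r 0 u| * u ^ (1 + 2 * θ)) ≤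
        ENNReal.ofReal (C0 * (1 / θ) ^ A0))
    (hT : ∀ (L θ H : ℝ) (X r : ℕ), 1 ≤ X → 1 ≤ L → Real.log X ≤ L → 0 < θ →
      θ ≤ 1 / 8 → (X : ℝ) ≤ H → 0 < r →
      ∑' j : ℕ, (if (X : ℝ) ^ 2 * (C₁ * L) ^ 17 < j * H then
        ∫⁻ u in Ioi (1 / (3 * X) : ℝ), ENNReal.ofReal (|Aj H r j u| * u ^ (1 + 2 * θ)) else 0) ≤ 1)
    (hV : ∀ θ : ℝ, 0 < θ → θ ≤ 1 →
      ∑' n : ℕ, ENNReal.ofReal (dv n ^ Aa * (n : ℝ) ^ (-1 - θ)) ≤
        ENNReal.ofReal (Cv * (1 / θ) ^ Av))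
    (L θ H : ℝ) (X P : ℕ) (hX : 1 ≤ X) (hL : 1 ≤ L) (hlog : Real.log X ≤ L)
    (hθ : 0 < θ) (hθ8 : θ ≤ 1 / 8) (hHdef : H = (P : ℝ) ^ 2 * X) (hXH : (X : ℝ) ≤ H)
    (hBpos : 0 < (X : ℝ) ^ 2 * (C₁ * L) ^ 17)
    (hBE : ((X : ℝ) ^ 2 * (C₁ * L) ^ 17) ^ (2 * θ) ≤ E1) (r : ℕ) (hr : 0 < r) :
    ((prs P).card : ℝ≥0∞) * ∫⁻ u in Ioi (1 / (3 * X) : ℝ),
        ENNReal.ofReal ((∑ m ∈ sqf X, Uf m r u ^ 2) * u ^ (1 + 2 * θ)) ≤
      ENNReal.ofReal (6 * Cs0 * (C0 + 1 + Ca * E1 * Cv) * (1 / θ) ^ (A0 + (Aa + Av)) *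
        dv r ^ Aa) * (ENNReal.ofReal H + ENNReal.ofReal (√H) *
        ∑ j ∈ sqf ⌊(X : ℝ) ^ 2 * (C₁ * L) ^ 17 / H⌋₊,
          ENNReal.ofReal (1 / √(j : ℝ)) * (Jm j + 1)) := by
  have hXR : (1 : ℝ) ≤ X := by exact_mod_cast hX
  have hH1 : 1 ≤ H := hXR.trans hXH
  have hθinv : 1 ≤ 1 / θ := by rw [le_div_iff₀ hθ]; linarith
  have htail0 := hT L θ H X r hX hL hlog hθ hθ8 hXH hr
  obtain ⟨Cs, hCsdef⟩ : ∃ Cs : ℝ, Cs = 6 * Cs0 := ⟨_, rfl⟩
  obtain ⟨N, hN⟩ : ∃ N : ℕ, N = A0 + (Aa + Av) := ⟨_, rfl⟩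
  obtain ⟨Z, hZ⟩ : ∃ Z : ℝ, Z = Cs * (C0 + 1 + Ca * E1 * Cv) := ⟨_, rfl⟩
  obtain ⟨B, hB⟩ : ∃ B : ℝ, B = (X : ℝ) ^ 2 * (C₁ * L) ^ 17 := ⟨_, rfl⟩
  obtain ⟨a, ha⟩ : ∃ a : ℝ, a = 1 / (3 * X) := ⟨_, rfl⟩
  obtain ⟨S₁, hS1⟩ : ∃ S₁ : ℝ≥0∞, S₁ =
      ∑ j ∈ sqf ⌊B / H⌋₊, ENNReal.ofReal (1 / √(j : ℝ)) * (Jm j + 1) := ⟨_, rfl⟩
  obtain ⟨Br, hBr⟩ : ∃ Br : ℝ≥0∞, Br = ENNReal.ofReal H + ENNReal.ofReal (√H) * S₁ := ⟨_, rfl⟩
  rw [← hB] at hBpos hBE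
  rw [← hB, ← ha] at htail0
  rw [← hCsdef, ← hN, ← hZ, ← hB, ← ha, ← hS1, ← hBr]
  have hCs : 0 < Cs := by rw [hCsdef]; positivity
  have ha0 : 0 ≤ a := by rw [ha]; positivity
  have hZpos : 0 < Z := by rw [hZ]; positivity
  have hdr : 1 ≤ dv r := dv_one_le hr
  have hdrA : 1 ≤ dv r ^ Aa := one_le_pow₀ hdr
  have hstart : ((prs P).card : ℝ≥0∞) * ∫⁻ u in Ioi a,
      ENNReal.ofReal ((∑ m ∈ sqf X, Uf m r u ^ 2) * u ^ (1 + 2 * θ)) ≤
      ENNReal.ofReal (Cs * H) * (TI H θ a r 0 + ∑' j : ℕ, TI H θ a r (j + 1)) := by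
    have hUm : ∀ m : ℕ, Measurable fun u : ℝ =>
        ENNReal.ofReal (Uf m r u ^ 2 * u ^ (1 + 2 * θ)) := by
      intro m
      apply ENNReal.measurable_ofReal.comp
      exact ((measurable_Uf _ _).pow_const 2).mul (measurable_id.pow_const _)
    have e1 : ∫⁻ u in Ioi a, ENNReal.ofReal ((∑ m ∈ sqf X, Uf m r u ^ 2) * u ^ (1 + 2 * θ)) =
        ∑ m ∈ sqf X, ∫⁻ u in Ioi a, ENNReal.ofReal (Uf m r u ^ 2 * u ^ (1 + 2 * θ)) := by
      rw [← lintegral_finsetSum _ fun m _ => hUm m]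
      apply setLIntegral_congr_fun measurableSet_Ioi
      intro u hu
      have hu0 : 0 < u := lt_of_le_of_lt ha0 hu
      simp only
      rw [Finset.sum_mul, ENNReal.ofReal_sum_of_nonneg fun m _ => by positivity]
    rw [e1]
    refine (gain hC X P r hθ.le ha0).trans ?_
    have h6 := int_le_gen hS (((prs P) ×ˢ (sqf X)).image (fun t : ℕ × ℕ => t.1 ^ 2 * t.2)) r H θ a
      (by linarith) (by
        intro M hM
        rw [Finset.mem_image] at hM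
        obtain ⟨⟨p, m⟩, ht, rfl⟩ := hM
        rw [Finset.mem_product] at ht
        have hp : p ≤ P := by
          have := (Finset.mem_filter.1 ht.1).1
          rw [Finset.mem_range] at this
          exact Nat.lt_succ_iff.1 this
        have hm : m ≤ X := (Finset.mem_Icc.1 (Finset.mem_filter.1 ht.2).1).2
        push_cast
        rw [hHdef]
        have hp' : (p : ℝ) ≤ P := by exact_mod_cast hp
        have hm' : (m : ℝ) ≤ X := by exact_mod_cast hm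
        gcongr) ha0
    calc 6 * ∑ M ∈ ((prs P) ×ˢ (sqf X)).image (fun t : ℕ × ℕ => t.1 ^ 2 * t.2),
          ∫⁻ u in Ioi a, ENNReal.ofReal (Uf M r u ^ 2 * u ^ (1 + 2 * θ))
        ≤ 6 * (ENNReal.ofReal (Cs0 * H) * (TI H θ a r 0 + ∑' j : ℕ, TI H θ a r (j + 1))) := by
          gcongr
      _ = _ := by
          rw [← mul_assoc, show (6 : ℝ≥0∞) = ENNReal.ofReal 6 by simp,
            ← ENNReal.ofReal_mul (by norm_num), hCsdef]
          congr 2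
          ring
  refine hstart.trans ?_
  have hzero : TI H θ a r 0 ≤ ENNReal.ofReal (C0 * (1 / θ) ^ A0) :=
    (TI_mono H θ a ha0 r 0).trans (h0 θ hθ hθ8 H r (by linarith) hr)
  have hsplit := split_sum (fun j : ℕ => TI H θ a r (j : ℤ)) (fun j : ℕ => TI H θ 0 r (j : ℤ))
    (fun j : ℕ => B < j * H) ⌊B / H⌋₊ (fun j => TI_mono H θ a ha0 r j) (by
      intro j _ hj
      rw [not_lt] at hj
      apply Nat.le_floor
      rw [le_div_iff₀ (by linarith)]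
      exact hj)
  have htail : (∑' j : ℕ, if B < j * H then TI H θ a r (j : ℤ) else 0) ≤ 1 := htail0
  have hsmall := small_sum Ca Cv Aa Av hCa θ H B hθ hH1 hBpos r
    (fun j₁ j₂ hsq hj₂ => hA θ hθ hθ8 H r j₁ j₂ (by linarith) hr hsq hj₂)
    (hV θ hθ (by linarith))
  rw [← hS1] at hsmall
  have hsumj : ∑' j : ℕ, TI H θ a r (j + 1) ≤ 1 +
      ENNReal.ofReal (Ca * (1 / θ) ^ Aa * dv r ^ Aa * (B ^ (2 * θ) * (1 / √H)) *
      (Cv * (1 / θ) ^ Av)) * S₁ := by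
    have e : ∑' j : ℕ, TI H θ a r (j + 1) = ∑' j : ℕ, TI H θ a r ((j + 1 : ℕ) : ℤ) := by
      push_cast; rfl
    rw [e]
    exact hsplit.trans (add_le_add htail hsmall)
  calc ENNReal.ofReal (Cs * H) * (TI H θ a r 0 + ∑' j : ℕ, TI H θ a r (j + 1))
      ≤ ENNReal.ofReal (Cs * H) * (ENNReal.ofReal (C0 * (1 / θ) ^ A0) + (1 +
        ENNReal.ofReal (Ca * (1 / θ) ^ Aa * dv r ^ Aa * (B ^ (2 * θ) * (1 / √H)) *
          (Cv * (1 / θ) ^ Av)) * S₁)) := by gcongr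
    _ ≤ ENNReal.ofReal (Cs * H) * (ENNReal.ofReal ((C0 + 1) * (1 / θ) ^ N * dv r ^ Aa) +
        ENNReal.ofReal ((Ca * E1 * Cv) * (1 / θ) ^ N * dv r ^ Aa * (1 / √H)) * S₁) := by
        rw [← add_assoc]
        have i1 : ENNReal.ofReal (C0 * (1 / θ) ^ A0) + 1 ≤
            ENNReal.ofReal ((C0 + 1) * (1 / θ) ^ N * dv r ^ Aa) := by
          rw [← ENNReal.ofReal_one, ← ENNReal.ofReal_add (by positivity) (by norm_num)]
          apply ENNReal.ofReal_le_ofReal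
          have h1 : (1 / θ) ^ A0 ≤ (1 / θ) ^ N := pow_le_pow_right₀ hθinv (by omega)
          have h2 : 1 ≤ (1 / θ) ^ N := one_le_pow₀ hθinv
          calc C0 * (1 / θ) ^ A0 + 1 ≤ C0 * (1 / θ) ^ N + (1 / θ) ^ N := by gcongr
            _ = (C0 + 1) * (1 / θ) ^ N * 1 := by ring
            _ ≤ (C0 + 1) * (1 / θ) ^ N * dv r ^ Aa := by gcongr
        have i2 : ENNReal.ofReal (Ca * (1 / θ) ^ Aa * dv r ^ Aa * (B ^ (2 * θ) * (1 / √H)) *
            (Cv * (1 / θ) ^ Av)) ≤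
            ENNReal.ofReal ((Ca * E1 * Cv) * (1 / θ) ^ N * dv r ^ Aa * (1 / √H)) := by
          apply ENNReal.ofReal_le_ofReal
          have h1 : (1 / θ) ^ (Aa + Av) ≤ (1 / θ) ^ N := pow_le_pow_right₀ hθinv (by omega)
          calc Ca * (1 / θ) ^ Aa * dv r ^ Aa * (B ^ (2 * θ) * (1 / √H)) * (Cv * (1 / θ) ^ Av)
              ≤ Ca * (1 / θ) ^ Aa * dv r ^ Aa * (E1 * (1 / √H)) * (Cv * (1 / θ) ^ Av) := by
                gcongr
            _ = Ca * E1 * Cv * (1 / θ) ^ (Aa + Av) * dv r ^ Aa * (1 / √H) := by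
                rw [pow_add]; ring
            _ ≤ _ := by gcongr
        exact mul_le_mul' le_rfl (add_le_add i1 (mul_le_mul' i2 le_rfl))
    _ ≤ ENNReal.ofReal (Z * (1 / θ) ^ N * dv r ^ Aa) * Br := by
        have hsqrt : H * (1 / √H) = √H := by
          rw [mul_one_div, Real.div_sqrt]
        rw [hBr, mul_add, mul_add, ← mul_assoc, ← mul_assoc, ← ENNReal.ofReal_mul (by positivity),
          ← ENNReal.ofReal_mul (by positivity), ← ENNReal.ofReal_mul (by positivity),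
          ← ENNReal.ofReal_mul (by positivity)]
        refine add_le_add (ENNReal.ofReal_le_ofReal ?_)
          (mul_le_mul' (ENNReal.ofReal_le_ofReal ?_) le_rfl)
        · rw [hZ]
          have : 0 ≤ Cs * (Ca * E1 * Cv) * H * ((1 / θ) ^ N * dv r ^ Aa) := by positivity
          nlinarith
        · have e : Cs * H * (Ca * E1 * Cv * (1 / θ) ^ N * dv r ^ Aa * (1 / √H)) =
            Cs * (Ca * E1 * Cv) * ((1 / θ) ^ N * dv r ^ Aa) * (H * (1 / √H)) := by ring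
          rw [e, hsqrt, hZ]
          have : 0 ≤ Cs * (C0 + 1) * √H * ((1 / θ) ^ N * dv r ^ Aa) := by positivity
          nlinarith

open I2Mod in
/-- **The recursion with the gain `π(P)`.** -/
theorem rec_gain (hC : StCoef) (hPair : StPair) (hK : StKer) (hDecomp : StDecomp) (hAj : StAj)
    (hA0 : StA0) (hTail : StTail) (hDiv : StDiv) :
    ∃ C₁ : ℝ, 1 ≤ C₁ ∧ ∃ C : ℝ, 1 ≤ C ∧ ∃ A : ℕ, ∀ (L : ℝ) (X P : ℕ), 1 ≤ X → 1 ≤ L →
      Real.log X ≤ L → 1 ≤ P →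
      ((prs P).card : ℝ≥0∞) * sumJ X ≤ ENNReal.ofReal (C * L ^ A) *
        (ENNReal.ofReal ((P : ℝ) ^ 2 * X) + ENNReal.ofReal (√((P : ℝ) ^ 2 * X)) *
        ∑ j ∈ sqf ⌊(X : ℝ) ^ 2 * (C₁ * L) ^ 17 / ((P : ℝ) ^ 2 * X)⌋₊,
          ENNReal.ofReal (1 / √(j : ℝ)) * (Jm j + 1)) := by
  obtain ⟨Cd, hCd, Ad, hD⟩ := hDecomp
  obtain ⟨Cs0, hCs0, hS⟩ := sumS_gen hC hPair hK
  obtain ⟨Ca, hCa, Aa, hA⟩ := hAj
  obtain ⟨C0, hC0, A0, h0⟩ := hA0
  obtain ⟨C₁, hC₁, hT⟩ := hTail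
  obtain ⟨Cv, hCv, Av, hV⟩ := hDiv.1 Aa
  obtain ⟨Cw, hCw, Aw, hW⟩ := hDiv.2 (2 + Aa)
  set Cs : ℝ := 6 * Cs0 with hCsdef
  have hCs : 0 < Cs := by positivity
  set E1 : ℝ := Real.exp ((19 + 17 * Real.log C₁) / 4) with hE1
  set Z : ℝ := Cs * (C0 + 1 + Ca * E1 * Cv) with hZ
  set N : ℕ := A0 + (Aa + Av) with hN
  have hE1pos : 0 < E1 := Real.exp_pos _
  have hZpos : 0 < Z := by positivity
  refine ⟨C₁, hC₁, max 1 (Cd * Real.exp 1 * Z * Cw * 8 ^ (Ad + N + Aw)), le_max_left _ _,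
    Ad + N + Aw, ?_⟩
  intro L X P hX hL hlog hP1
  have hXR : (1 : ℝ) ≤ X := by exact_mod_cast hX
  have hPR : (1 : ℝ) ≤ P := by exact_mod_cast hP1
  obtain ⟨H, hHdef⟩ : ∃ H : ℝ, H = (P : ℝ) ^ 2 * X := ⟨_, rfl⟩
  rw [← hHdef]
  have hP2 : (1 : ℝ) ≤ (P : ℝ) ^ 2 := one_le_pow₀ hPR
  have hXH : (X : ℝ) ≤ H := by rw [hHdef]; nlinarith
  have hH1 : 1 ≤ H := hXR.trans hXH
  set θ : ℝ := 1 / (8 * L) with hθdef
  have hθ : 0 < θ := by positivity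
  have hθ8 : θ ≤ 1 / 8 := by
    rw [hθdef]
    apply one_div_le_one_div_of_le (by norm_num)
    linarith
  have hθ1 : 1 / θ = 8 * L := by rw [hθdef, one_div_one_div]
  have hθinv : 1 ≤ 1 / θ := by rw [hθ1]; linarith
  have hlogX0 : 0 ≤ Real.log X := Real.log_nonneg hXR
  set B : ℝ := (X : ℝ) ^ 2 * (C₁ * L) ^ 17 with hB
  have hCL : 1 ≤ C₁ * L := by nlinarith
  have hBpos : 0 < B := by positivity
  have hBE : B ^ (2 * θ) ≤ E1 := by
    rw [Real.rpow_def_of_pos hBpos, hE1]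
    apply Real.exp_le_exp.2
    have hlogB : Real.log B = 2 * Real.log X + 17 * (Real.log C₁ + Real.log L) := by
      rw [hB, Real.log_mul (by positivity) (by positivity), Real.log_pow, Real.log_pow,
        Real.log_mul (by positivity) (by positivity)]
      norm_num
    have h1 : Real.log L ≤ L := (Real.log_le_sub_one_of_pos (by linarith)).trans (by linarith)
    have h2 : 0 ≤ Real.log C₁ := Real.log_nonneg hC₁
    have h3 : Real.log B ≤ (19 + 17 * Real.log C₁) * L := by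
      rw [hlogB]
      nlinarith
    calc Real.log B * (2 * θ) ≤ (19 + 17 * Real.log C₁) * L * (2 * θ) := by gcongr
      _ = (19 + 17 * Real.log C₁) / 4 := by
        rw [hθdef]; field_simp; ring
  have h3X : (3 * X : ℝ) ^ (2 * θ) ≤ Real.exp 1 := by
    rw [Real.rpow_def_of_pos (by positivity)]
    apply Real.exp_le_exp.2
    rw [Real.log_mul (by norm_num) (by positivity)]
    have h1 : Real.log 3 ≤ 2 := by
      have := Real.log_le_sub_one_of_pos (by norm_num : (0 : ℝ) < 3)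
      linarith
    calc (Real.log 3 + Real.log X) * (2 * θ) ≤ (2 + L) * (2 * θ) := by gcongr
      _ ≤ (3 * L) * (2 * θ) := by gcongr; linarith
      _ = 3 / 4 := by rw [hθdef]; field_simp; ring
      _ ≤ 1 := by norm_num
  set S₁ : ℝ≥0∞ := ∑ j ∈ sqf ⌊B / H⌋₊, ENNReal.ofReal (1 / √(j : ℝ)) * (Jm j + 1) with hS1
  set Br : ℝ≥0∞ := ENNReal.ofReal H + ENNReal.ofReal (√H) * S₁ with hBr
  set a : ℝ := 1 / (3 * X) with ha
  have ha0 : 0 ≤ a := by positivity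
  have key : ∀ r : ℕ, 0 < r →
      ((prs P).card : ℝ≥0∞) * ∫⁻ u in Ioi a,
        ENNReal.ofReal ((∑ m ∈ sqf X, Uf m r u ^ 2) * u ^ (1 + 2 * θ)) ≤
        ENNReal.ofReal (Z * (1 / θ) ^ N * dv r ^ Aa) * Br := by
    intro r hr
    exact key_gain hC hCs0 hCa hC0 hCv hE1pos hS hA h0 hT hV L θ H X P hX hL hlog hθ hθ8 hHdef
      hXH hBpos hBE r hr
  -- assembly
  have hfin := hD θ hθ hθ8 X hX
  have hr0 : ∀ r : {r : ℕ // Powerful r}, 0 < (r : ℕ) := fun r => Nat.pos_of_ne_zero r.2.1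
  have hterm : ∀ r : {r : ℕ // Powerful r}, ((prs P).card : ℝ≥0∞) *
      (ENNReal.ofReal (dv r ^ 2 * (r : ℝ) ^ (-1 / 2 - 3 / 2 * θ)) *
        ∫⁻ u in Ioi a, ENNReal.ofReal ((∑ m ∈ sqf X, Uf m r u ^ 2) * u ^ (1 + 2 * θ))) ≤
      ENNReal.ofReal (Z * (1 / θ) ^ N) * Br *
        ENNReal.ofReal (dv r ^ (2 + Aa) * (r : ℝ) ^ (-1 / 2 - 3 / 2 * θ)) := by
    intro r
    have h1 : 0 ≤ dv r := I2Mod.dv_nonneg r
    calc ((prs P).card : ℝ≥0∞) * (ENNReal.ofReal (dv r ^ 2 * (r : ℝ) ^ (-1 / 2 - 3 / 2 * θ)) *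
        ∫⁻ u in Ioi a, ENNReal.ofReal ((∑ m ∈ sqf X, Uf m r u ^ 2) * u ^ (1 + 2 * θ)))
        = ENNReal.ofReal (dv r ^ 2 * (r : ℝ) ^ (-1 / 2 - 3 / 2 * θ)) * (((prs P).card : ℝ≥0∞) *
        ∫⁻ u in Ioi a, ENNReal.ofReal ((∑ m ∈ sqf X, Uf m r u ^ 2) * u ^ (1 + 2 * θ))) := by
          ring
      _ ≤ ENNReal.ofReal (dv r ^ 2 * (r : ℝ) ^ (-1 / 2 - 3 / 2 * θ)) *
          (ENNReal.ofReal (Z * (1 / θ) ^ N * dv r ^ Aa) * Br) :=
          mul_le_mul' le_rfl (key r (hr0 r))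
      _ = ENNReal.ofReal (dv r ^ 2 * (r : ℝ) ^ (-1 / 2 - 3 / 2 * θ) *
            (Z * (1 / θ) ^ N * dv r ^ Aa)) * Br := by
          rw [ENNReal.ofReal_mul (p := dv r ^ 2 * (r : ℝ) ^ (-1 / 2 - 3 / 2 * θ)) (by positivity),
            ← mul_assoc]
      _ = ENNReal.ofReal ((Z * (1 / θ) ^ N) *
            (dv r ^ (2 + Aa) * (r : ℝ) ^ (-1 / 2 - 3 / 2 * θ))) * Br := by
          congr 2
          rw [pow_add]; ring
      _ = ENNReal.ofReal (Z * (1 / θ) ^ N) * Br *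
            ENNReal.ofReal (dv r ^ (2 + Aa) * (r : ℝ) ^ (-1 / 2 - 3 / 2 * θ)) := by
          rw [ENNReal.ofReal_mul (p := Z * (1 / θ) ^ N) (by positivity)]
          ring
  have hsumr : ∑' r : {r : ℕ // Powerful r},
      ENNReal.ofReal (dv r ^ (2 + Aa) * (r : ℝ) ^ (-1 / 2 - 3 / 2 * θ)) ≤
      ENNReal.ofReal (Cw * (1 / θ) ^ Aw) := by
    refine (hW (3 / 2 * θ) (by positivity) (by linarith)).trans ?_
    apply ENNReal.ofReal_le_ofReal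
    have : 1 / (3 / 2 * θ) ≤ 1 / θ := one_div_le_one_div_of_le hθ (by linarith)
    gcongr
  have hpre : ENNReal.ofReal (Cd * (1 / θ) ^ Ad * (3 * X : ℝ) ^ (2 * θ)) ≤
      ENNReal.ofReal (Cd * (1 / θ) ^ Ad * Real.exp 1) := by
    apply ENNReal.ofReal_le_ofReal
    gcongr
  calc ((prs P).card : ℝ≥0∞) * sumJ X ≤ ((prs P).card : ℝ≥0∞) *
        (ENNReal.ofReal (Cd * (1 / θ) ^ Ad * (3 * X : ℝ) ^ (2 * θ)) *
          ∑' r : {r : ℕ // Powerful r}, ENNReal.ofReal (dv r ^ 2 * (r : ℝ) ^ (-1 / 2 - 3 / 2 * θ)) *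
          ∫⁻ u in Ioi (1 / (3 * X) : ℝ),
            ENNReal.ofReal ((∑ m ∈ sqf X, Uf m r u ^ 2) * u ^ (1 + 2 * θ))) := by
        gcongr
    _ = ENNReal.ofReal (Cd * (1 / θ) ^ Ad * (3 * X : ℝ) ^ (2 * θ)) *
        ∑' r : {r : ℕ // Powerful r}, ((prs P).card : ℝ≥0∞) *
          (ENNReal.ofReal (dv r ^ 2 * (r : ℝ) ^ (-1 / 2 - 3 / 2 * θ)) *
          ∫⁻ u in Ioi (1 / (3 * X) : ℝ),
            ENNReal.ofReal ((∑ m ∈ sqf X, Uf m r u ^ 2) * u ^ (1 + 2 * θ))) := by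
        rw [ENNReal.tsum_mul_left]
        ring
    _ ≤ ENNReal.ofReal (Cd * (1 / θ) ^ Ad * Real.exp 1) *
        ∑' r : {r : ℕ // Powerful r}, ENNReal.ofReal (Z * (1 / θ) ^ N) * Br *
          ENNReal.ofReal (dv r ^ (2 + Aa) * (r : ℝ) ^ (-1 / 2 - 3 / 2 * θ)) :=
        mul_le_mul' hpre (ENNReal.tsum_le_tsum hterm)
    _ = ENNReal.ofReal (Cd * (1 / θ) ^ Ad * Real.exp 1) * (ENNReal.ofReal (Z * (1 / θ) ^ N) * Br *
        ∑' r : {r : ℕ // Powerful r},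
          ENNReal.ofReal (dv r ^ (2 + Aa) * (r : ℝ) ^ (-1 / 2 - 3 / 2 * θ))) := by
        rw [ENNReal.tsum_mul_left]
    _ ≤ ENNReal.ofReal (Cd * (1 / θ) ^ Ad * Real.exp 1) * (ENNReal.ofReal (Z * (1 / θ) ^ N) * Br *
        ENNReal.ofReal (Cw * (1 / θ) ^ Aw)) :=
        mul_le_mul' le_rfl (mul_le_mul' le_rfl hsumr)
    _ = ENNReal.ofReal (Cd * (1 / θ) ^ Ad * Real.exp 1 * (Z * (1 / θ) ^ N) *
          (Cw * (1 / θ) ^ Aw)) * Br := by
        rw [ENNReal.ofReal_mul (p := Cd * (1 / θ) ^ Ad * Real.exp 1 * (Z * (1 / θ) ^ N))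
          (by positivity), ENNReal.ofReal_mul (p := Cd * (1 / θ) ^ Ad * Real.exp 1)
          (by positivity)]
        ring
    _ ≤ ENNReal.ofReal (max 1 (Cd * Real.exp 1 * Z * Cw * 8 ^ (Ad + N + Aw)) *
          L ^ (Ad + N + Aw)) * Br := by
        refine mul_le_mul' (ENNReal.ofReal_le_ofReal ?_) le_rfl
        rw [hθ1]
        have e : Cd * (8 * L) ^ Ad * Real.exp 1 * (Z * (8 * L) ^ N) * (Cw * (8 * L) ^ Aw) =
            (Cd * Real.exp 1 * Z * Cw * 8 ^ (Ad + N + Aw)) * L ^ (Ad + N + Aw) := by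
          rw [mul_pow, mul_pow, mul_pow, pow_add, pow_add, pow_add, pow_add]; ring
        rw [e]
        gcongr
        exact le_max_right _ _

end P004.H3
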