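import Vale.Agent.P004.H3.Edge2
import Vale.Agent.P004.J

/-!
# P004/H3: the square trick, part 3: the full second moment is `≪ X (log X)^A`
-/

open Real MeasureTheory Set
open scoped ENNReal

namespace P004.H3

theorem card_prs (P : ℕ) : (prs P).card = Nat.primeCounting P := by
  unfold prs Nat.primeCounting Nat.primeCounting'
  rw [Nat.count_eq_card_filter_range]

theorem card_prs_ge {P : ℕ} (hP : 4 ≤ P) : √(P : ℝ) / 8 ≤ ((prs P).card : ℝ) := by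
  rw [card_prs]
  have hPR : (4 : ℝ) ≤ P := by exact_mod_cast hP
  have hP0 : (0 : ℝ) < P := by linarith
  have h := Chebyshev.pi_ge P
  refine le_trans ?_ h
  have hs : 0 < √(P : ℝ) := Real.sqrt_pos.2 hP0
  have hs1 : 1 < √(P : ℝ) := by
    rw [Real.lt_sqrt (by norm_num)]; linarith
  have hss : √(P : ℝ) * √(P : ℝ) = P := Real.mul_self_sqrt hP0.le
  have hlog : Real.log P ≤ 2 * √(P : ℝ) := by
    have h1 : Real.log P = 2 * Real.log (√(P : ℝ)) := by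
      rw [Real.log_sqrt hP0.le]; ring
    have h2 := Real.log_le_sub_one_of_pos hs
    rw [h1]; linarith
  have hlog0 : 0 < Real.log P := Real.log_pos (by linarith)
  have hlog1 : Real.log ((P : ℝ) + 1) ≤ 0.44 * P := by
    have h1 : (P : ℝ) + 1 = ((P : ℝ) + 1) / 5 * 5 := by ring
    have h2 : Real.log 5 ≤ 1.62 := by
      rw [Real.log_le_iff_le_exp (by norm_num)]
      have h0 := Real.exp_one_gt_d9
      have h3 : Real.exp 1.62 = Real.exp 1 * Real.exp 0.62 := by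
        rw [← Real.exp_add]; norm_num
      have h4 : (1.851 : ℝ) ≤ Real.exp 0.62 := by
        have := Real.sum_le_exp_of_nonneg (x := 0.62) (by norm_num) 4
        norm_num [Finset.sum_range_succ, Nat.factorial] at this ⊢
        linarith
      rw [h3]
      nlinarith
    rw [h1, Real.log_mul (by positivity) (by norm_num)]
    have h5 := Real.log_le_sub_one_of_pos (show (0 : ℝ) < ((P : ℝ) + 1) / 5 by positivity)
    norm_num at h2 h5 ⊢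
    linarith
  have hl2 : (0.69 : ℝ) ≤ Real.log 2 := by
    have := Real.log_two_gt_d9
    linarith
  rw [div_le_div_iff₀ (by norm_num) hlog0]
  calc √(P : ℝ) * Real.log P ≤ √(P : ℝ) * (2 * √(P : ℝ)) := by gcongr
    _ = 2 * (√(P : ℝ) * √(P : ℝ)) := by ring
    _ = 2 * P := by rw [hss]
    _ ≤ (P * Real.log 2 - Real.log (P + 1)) * 8 := by nlinarith

/-- the induction -/
theorem edge_ind {C₁ C : ℝ} {A : ℕ} (hC₁ : 1 ≤ C₁) (hC : 1 ≤ C)
    (hrec : ∀ (L : ℝ) (X P : ℕ), 1 ≤ X → 1 ≤ L →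
      Real.log X ≤ L → 1 ≤ P →
      ((prs P).card : ℝ≥0∞) * sumJ X ≤ ENNReal.ofReal (C * L ^ A) *
        (ENNReal.ofReal ((P : ℝ) ^ 2 * X) + ENNReal.ofReal (√((P : ℝ) ^ 2 * X)) *
        ∑ j ∈ sqf ⌊(X : ℝ) ^ 2 * (C₁ * L) ^ 17 / ((P : ℝ) ^ 2 * X)⌋₊,
          ENNReal.ofReal (1 / √(j : ℝ)) * (Jm j + 1)))
    (L : ℝ) (hL : 1 ≤ L) (X₀ : ℕ) (hX₀ : Real.log X₀ ≤ L) (P : ℕ) (hP4 : 4 ≤ P)
    (hPQ : 8 * (8 * (C * L ^ A * (C₁ * L) ^ 9)) ≤ √(P : ℝ)) :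
    ∀ Y : ℕ, Y ≤ X₀ → sumJ Y ≤ ENNReal.ofReal ((P : ℝ) ^ 2 * Y) := by
  have hCL : 1 ≤ C₁ * L := by nlinarith
  have hCL9 : 1 ≤ (C₁ * L) ^ 9 := one_le_pow₀ hCL
  have hLA : 1 ≤ L ^ A := one_le_pow₀ hL
  obtain ⟨Q, hQ⟩ : ∃ Q : ℝ, Q = C * L ^ A * (C₁ * L) ^ 9 := ⟨_, rfl⟩
  rw [← hQ] at hPQ
  have hCLA : 1 ≤ C * L ^ A := by nlinarith
  have hQ9 : (C₁ * L) ^ 9 ≤ Q := by rw [hQ]; nlinarith
  have hQA : C * L ^ A ≤ Q := by rw [hQ]; nlinarith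
  have hQ1 : 1 ≤ Q := hCL9.trans hQ9
  have hPR : (4 : ℝ) ≤ P := by exact_mod_cast hP4
  have hP0 : (0 : ℝ) < P := by linarith
  have hss : √(P : ℝ) * √(P : ℝ) = P := Real.mul_self_sqrt hP0.le
  have hcard : 8 * Q ≤ ((prs P).card : ℝ) := by
    have := card_prs_ge hP4
    linarith
  have hPbig : 4 * (C₁ * L) ^ 17 ≤ (P : ℝ) ^ 2 := by
    have h1 : Q ≤ (P : ℝ) := by nlinarith
    have h2 : (C₁ * L) ^ 17 ≤ (C₁ * L) ^ 18 := pow_le_pow_right₀ hCL (by norm_num)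
    have h3 : (C₁ * L) ^ 18 ≤ Q ^ 2 := by
      calc (C₁ * L) ^ 18 = ((C₁ * L) ^ 9) ^ 2 := by ring
        _ ≤ Q ^ 2 := by gcongr
    have h4 : 64 * Q ≤ √(P : ℝ) := by linarith
    have h5 : (2 * Q) ≤ P := by nlinarith
    calc 4 * (C₁ * L) ^ 17 ≤ 4 * Q ^ 2 := by linarith
      _ = (2 * Q) ^ 2 := by ring
      _ ≤ (P : ℝ) ^ 2 := by gcongr
  intro Y
  induction Y using Nat.strong_induction_on with
  | _ Y ih =>
    intro hY
    rcases Nat.eq_zero_or_pos Y with rfl | hYpos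
    · simp [sumJ, sqf]
    have hYR : (1 : ℝ) ≤ Y := by exact_mod_cast hYpos
    have hlogY : Real.log Y ≤ L := by
      refine (Real.log_le_log (by positivity) ?_).trans hX₀
      exact_mod_cast hY
    have h := hrec L Y P hYpos hL hlogY (by omega)
    have hquot : (Y : ℝ) ^ 2 * (C₁ * L) ^ 17 / ((P : ℝ) ^ 2 * Y) =
        Y * (C₁ * L) ^ 17 / (P : ℝ) ^ 2 := by
      field_simp
    rw [hquot] at h
    obtain ⟨K, hK⟩ : ∃ K : ℕ, K = ⌊(Y : ℝ) * (C₁ * L) ^ 17 / (P : ℝ) ^ 2⌋₊ := ⟨_, rfl⟩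
    rw [← hK] at h
    have hKle : (K : ℝ) ≤ (Y : ℝ) * (C₁ * L) ^ 17 / (P : ℝ) ^ 2 := by
      rw [hK]; exact Nat.floor_le (by positivity)
    have hKY : (K : ℝ) ≤ Y / 4 := by
      refine hKle.trans ?_
      rw [div_le_div_iff₀ (by positivity) (by norm_num)]
      nlinarith
    have hKY' : K < Y := by
      have : (K : ℝ) < Y := by linarith
      exact_mod_cast this
    have hsum := JMod.sum_sqf K ((P : ℝ) ^ 2) (by positivity) (fun y hy =>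
      ih y (lt_of_le_of_lt hy hKY') (by omega))
    have hs2 : √((P : ℝ) ^ 2 * Y) * √(K : ℝ) ≤ Y * (C₁ * L) ^ 9 := by
      rw [← Real.sqrt_mul (by positivity)]
      apply Real.sqrt_le_iff.2
      refine ⟨by positivity, ?_⟩
      calc (P : ℝ) ^ 2 * Y * K ≤ (P : ℝ) ^ 2 * Y * ((Y : ℝ) * (C₁ * L) ^ 17 / (P : ℝ) ^ 2) := by
            gcongr
        _ = (Y : ℝ) ^ 2 * (C₁ * L) ^ 17 := by field_simp
        _ ≤ (Y : ℝ) ^ 2 * (C₁ * L) ^ 18 := by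
            have : (C₁ * L) ^ 17 ≤ (C₁ * L) ^ 18 := pow_le_pow_right₀ hCL (by norm_num)
            gcongr
        _ = (Y * (C₁ * L) ^ 9) ^ 2 := by ring
    have hcard0 : ((prs P).card : ℝ≥0∞) ≠ 0 := by
      have : (0 : ℝ) < ((prs P).card : ℝ) := by linarith
      have : 0 < (prs P).card := by exact_mod_cast this
      exact_mod_cast this.ne'
    have hfin : ((prs P).card : ℝ≥0∞) * sumJ Y ≤
        ((prs P).card : ℝ≥0∞) * ENNReal.ofReal ((P : ℝ) ^ 2 * Y) := by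
      calc ((prs P).card : ℝ≥0∞) * sumJ Y ≤ _ := h
        _ ≤ ENNReal.ofReal (C * L ^ A) * (ENNReal.ofReal ((P : ℝ) ^ 2 * Y) +
            ENNReal.ofReal (√((P : ℝ) ^ 2 * Y)) *
              ENNReal.ofReal (2 * ((P : ℝ) ^ 2 + 1) * √(K : ℝ))) := by gcongr
        _ = ENNReal.ofReal (C * L ^ A * ((P : ℝ) ^ 2 * Y + √((P : ℝ) ^ 2 * Y) *
              (2 * ((P : ℝ) ^ 2 + 1) * √(K : ℝ)))) := by
            rw [← ENNReal.ofReal_mul (by positivity), ← ENNReal.ofReal_add (by positivity)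
              (by positivity), ← ENNReal.ofReal_mul (by positivity)]
        _ ≤ ENNReal.ofReal (((prs P).card : ℝ) * ((P : ℝ) ^ 2 * Y)) := by
            apply ENNReal.ofReal_le_ofReal
            have e1 : √((P : ℝ) ^ 2 * Y) * (2 * ((P : ℝ) ^ 2 + 1) * √(K : ℝ)) ≤
                2 * ((P : ℝ) ^ 2 + 1) * (Y * (C₁ * L) ^ 9) := by
              calc √((P : ℝ) ^ 2 * Y) * (2 * ((P : ℝ) ^ 2 + 1) * √(K : ℝ)) =
                  2 * ((P : ℝ) ^ 2 + 1) * (√((P : ℝ) ^ 2 * Y) * √(K : ℝ)) := by ring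
                _ ≤ _ := by gcongr
            have hP2 : (1 : ℝ) ≤ (P : ℝ) ^ 2 := one_le_pow₀ (by linarith)
            calc C * L ^ A * ((P : ℝ) ^ 2 * Y + √((P : ℝ) ^ 2 * Y) *
                  (2 * ((P : ℝ) ^ 2 + 1) * √(K : ℝ)))
                ≤ C * L ^ A * ((P : ℝ) ^ 2 * Y + 2 * ((P : ℝ) ^ 2 + 1) * (Y * (C₁ * L) ^ 9)) := by
                  gcongr
              _ = (C * L ^ A) * ((P : ℝ) ^ 2 * Y) + 2 * ((P : ℝ) ^ 2 + 1) * Y * Q := by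
                  rw [hQ]; ring
              _ ≤ Q * ((P : ℝ) ^ 2 * Y) + 2 * ((P : ℝ) ^ 2 + (P : ℝ) ^ 2) * Y * Q := by
                  gcongr
              _ = 5 * Q * ((P : ℝ) ^ 2 * Y) := by ring
              _ ≤ ((prs P).card : ℝ) * ((P : ℝ) ^ 2 * Y) := by
                  gcongr
                  linarith
        _ = ((prs P).card : ℝ≥0∞) * ENNReal.ofReal ((P : ℝ) ^ 2 * Y) := by
            rw [ENNReal.ofReal_mul (by positivity), ENNReal.ofReal_natCast]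
    exact (ENNReal.mul_le_mul_iff_right hcard0 (ENNReal.natCast_ne_top _)).1 hfin

/-- **The full second moment**: `∑_{m ≤ X squarefree} J_m ≪ X (log X)^A`. -/
def StEdge : Prop := ∃ C : ℝ, 1 ≤ C ∧ ∃ A : ℕ, ∀ X : ℕ, 3 ≤ X →
  sumJ X ≤ ENNReal.ofReal (C * X * Real.log X ^ A)

theorem pfEdge_of (hC : StCoef) (hPair : StPair) (hK : StKer) (hDecomp : StDecomp) (hAj : StAj)
    (hA0 : StA0) (hTail : StTail) (hDiv : StDiv) : StEdge := by
  obtain ⟨C₁, hC₁, C, hC1, A, hrec⟩ := rec_gain hC hPair hK hDecomp hAj hA0 hTail hDiv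
  refine ⟨(2 * (64 * (C * C₁ ^ 9)) ^ 2) ^ 2, ?_, 4 * (A + 9), fun X hX => ?_⟩
  · have h1 : 1 ≤ C₁ ^ 9 := one_le_pow₀ hC₁
    have h2 : 1 ≤ C * C₁ ^ 9 := by nlinarith
    have h3 : 1 ≤ 64 * (C * C₁ ^ 9) := by linarith
    have h4 : 1 ≤ (64 * (C * C₁ ^ 9)) ^ 2 := one_le_pow₀ h3
    exact one_le_pow₀ (by linarith)
  have hX3 : (3 : ℝ) ≤ X := by exact_mod_cast hX
  obtain ⟨L, hL⟩ : ∃ L : ℝ, L = Real.log X := ⟨_, rfl⟩
  have hL1 : 1 ≤ L := by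
    rw [hL, Real.le_log_iff_exp_le (by linarith)]
    have := Real.exp_one_lt_d9
    linarith
  rw [← hL]
  have hCL : 1 ≤ C₁ * L := by nlinarith
  have hCL9 : 1 ≤ (C₁ * L) ^ 9 := one_le_pow₀ hCL
  have hLA : 1 ≤ L ^ A := one_le_pow₀ hL1
  have hCLA : 1 ≤ C * L ^ A := by nlinarith
  obtain ⟨Q, hQ⟩ : ∃ Q : ℝ, Q = C * L ^ A * (C₁ * L) ^ 9 := ⟨_, rfl⟩
  have hQ1 : 1 ≤ Q := by rw [hQ]; nlinarith
  obtain ⟨P, hPdef⟩ : ∃ P : ℕ, P = ⌈(64 * Q) ^ 2⌉₊ := ⟨_, rfl⟩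
  have h64 : (1 : ℝ) ≤ (64 * Q) ^ 2 := one_le_pow₀ (by linarith)
  have hPge : (64 * Q) ^ 2 ≤ (P : ℝ) := by rw [hPdef]; exact Nat.le_ceil _
  have hPle : (P : ℝ) ≤ 2 * (64 * Q) ^ 2 := by
    rw [hPdef]
    have := Nat.ceil_lt_add_one (show (0 : ℝ) ≤ (64 * Q) ^ 2 by positivity)
    linarith
  have hP4 : 4 ≤ P := by
    have : (4 : ℝ) ≤ P := by nlinarith
    exact_mod_cast this
  have hPQ : 8 * (8 * (C * L ^ A * (C₁ * L) ^ 9)) ≤ √(P : ℝ) := by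
    rw [← hQ]
    apply Real.le_sqrt_of_sq_le
    have e : (8 * (8 * Q)) ^ 2 = (64 * Q) ^ 2 := by ring
    rw [e]
    exact hPge
  have h := edge_ind hC₁ hC1 hrec L hL1 X (by rw [hL]) P hP4 hPQ X le_rfl
  refine h.trans (ENNReal.ofReal_le_ofReal ?_)
  have hQe : Q = (C * C₁ ^ 9) * L ^ (A + 9) := by
    rw [hQ, mul_pow, pow_add]; ring
  calc (P : ℝ) ^ 2 * X ≤ (2 * (64 * Q) ^ 2) ^ 2 * X := by gcongr
    _ = (2 * (64 * (C * C₁ ^ 9)) ^ 2) ^ 2 * X * L ^ (4 * (A + 9)) := by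
      rw [hQe, show 4 * (A + 9) = (A + 9) * 4 by ring, pow_mul]
      ring

end P004.H3
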