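import Vale.Agent.P004.H503.Iface3
import Vale.Agent.P004.I1

/-!
# P004/H3: the series `Fn f h = ∑ bet f n χ_h(n)`, and facts about `Good`
-/

open Real MeasureTheory Set
open scoped ENNReal

namespace P004.H3

/-! ### `Good` -/

theorem good_mul {a b : ℕ} (ha : Good a) (hb : Good b) : Good (a * b) := by
  refine ⟨Nat.mul_ne_zero ha.1 hb.1, fun p hp hd => ⟨?_, fun h3 => ?_⟩⟩
  · rcases (Nat.Prime.dvd_mul hp).1 hd with h | h
    · exact (ha.2 p hp h).1
    · exact (hb.2 p hp h).1
  · rw [Nat.factorization_mul ha.1 hb.1, Finsupp.add_apply]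
    have key : ∀ c : ℕ, Good c → Even (c.factorization p) := by
      intro c hc
      by_cases h : p ∣ c
      · exact (hc.2 p hp h).2 h3
      · rw [Nat.factorization_eq_zero_of_not_dvd h]
        exact Even.zero
    exact (key a ha).add (key b hb)

theorem good_one : Good 1 := by
  refine ⟨one_ne_zero, fun p hp hd => ?_⟩
  exact absurd (Nat.dvd_one.1 hd) hp.one_lt.ne'

/-- at a prime `≡ 3 mod 4` the coefficients of odd index vanish -/
theorem ca_odd_pow (hC : StCoef) {p : ℕ} (hp : p.Prime) (h3 : p % 4 = 3) (k : ℕ) :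
    ca (p ^ (2 * k + 1)) = 0 := by
  have hp2 : p ≠ 2 := by rintro rfl; norm_num at h3
  induction k with
  | zero => simpa using hC.three_mod_four p hp h3
  | succ k ih =>
    have h := hC.hecke p (2 * k + 1) hp hp2
    rw [show 2 * (k + 1) + 1 = 2 * k + 1 + 2 by ring, h, ih, hC.three_mod_four p hp h3]
    simp

theorem good_of_ca_ne_zero (hC : StCoef) {n : ℕ} (hn : ca n ≠ 0) : Good n := by
  have hn0 : n ≠ 0 := by
    rintro rfl
    exact hn hC.zero
  have h4 : n % 4 = 1 := by
    by_contra h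
    exact hn (hC.mod_four n h)
  refine ⟨hn0, fun p hp hd => ⟨?_, fun h3 => ?_⟩⟩
  · rintro rfl
    omega
  · by_contra hodd
    rw [Nat.not_even_iff_odd] at hodd
    obtain ⟨k, hk⟩ := hodd
    have hsplit : n = p ^ (n.factorization p) * (n / p ^ (n.factorization p)) :=
      (Nat.ordProj_mul_ordCompl_eq_self n p).symm
    have hcop : Nat.Coprime (p ^ (n.factorization p)) (n / p ^ (n.factorization p)) :=
      Nat.Coprime.pow_left _ (Nat.coprime_ordCompl hp hn0)
    have h := hC.mul _ _ hcop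
    rw [← hsplit, hk, ca_odd_pow hC hp h3 k, zero_mul] at h
    exact hn h

/-! ### divisor function -/

theorem dv_nonneg (n : ℕ) : 0 ≤ dv n := by unfold dv; positivity

theorem one_le_dv {n : ℕ} (hn : n ≠ 0) : 1 ≤ dv n := by
  unfold dv
  have : 0 < n.divisors.card := Finset.card_pos.2 (Nat.nonempty_divisors.2 hn)
  exact_mod_cast this

theorem dv_mul_le (a b : ℕ) : dv (a * b) ≤ dv a * dv b := by
  unfold dv
  rw [Nat.divisors_mul, ← Nat.cast_mul]
  exact_mod_cast Finset.card_mul_le

theorem dv_le_of_dvd {a b : ℕ} (hb : b ≠ 0) (h : a ∣ b) : dv a ≤ dv b := by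
  unfold dv
  exact_mod_cast Finset.card_le_card (Nat.divisors_subset_of_dvd hb h)

/-! ### the coefficients `bet` -/

theorem int_exp {c U : ℝ} (hc : 0 < c) :
    IntegrableOn (fun u : ℝ => Real.exp (-c * u)) (Ioi U) ∧
      ∫ u in Ioi U, Real.exp (-c * u) = Real.exp (-c * U) / c := by
  refine ⟨exp_neg_integrableOn_Ioi U hc, ?_⟩
  have h := integral_exp_mul_Ioi (a := -c) (by linarith) U
  rw [h]
  field_simp

/-- restriction of an integral against `f` to `u ≥ U` -/
theorem setIntegral_restrict {f : ℝ → ℝ} {U : ℝ} (hU : 0 < U) (hf0 : ∀ u, u < U → f u = 0)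
    (g : ℝ → ℝ) : ∫ u in Ioi (0 : ℝ), g u * f u = ∫ u in Ioi U, g u * f u := by
  rw [← integral_Ici_eq_integral_Ioi (x := U)]
  refine setIntegral_eq_of_subset_of_forall_sdiff_eq_zero measurableSet_Ioi ?_ ?_
  · intro u hu
    exact lt_of_lt_of_le hU hu
  · intro u hu
    have : u < U := by
      by_contra h
      exact hu.2 (not_lt.1 h)
    rw [hf0 u this, mul_zero]

theorem abs_int_le {f : ℝ → ℝ} {U c : ℝ} (hU : 0 < U) (hc : 0 < c) (hf1 : ∀ u, |f u| ≤ 1)
    (hf0 : ∀ u, u < U → f u = 0) :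
    |∫ u in Ioi (0 : ℝ), Real.exp (-c * u) * f u| ≤ Real.exp (-c * U) / c := by
  rw [setIntegral_restrict hU hf0]
  obtain ⟨h1, h2⟩ := int_exp (U := U) hc
  rw [← h2, ← Real.norm_eq_abs]
  refine norm_integral_le_of_norm_le h1 ?_
  refine Filter.Eventually.of_forall fun u => ?_
  rw [norm_mul, Real.norm_of_nonneg (Real.exp_pos _).le]
  exact mul_le_of_le_one_right (Real.exp_pos _).le (hf1 u)

/-- the bound for `bet` -/
theorem abs_bet_le (hC : StCoef) {f : ℝ → ℝ} {U : ℝ} (hU : 0 < U) (hf1 : ∀ u, |f u| ≤ 1)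
    (hf0 : ∀ u, u < U → f u = 0) (n : ℕ) :
    √(n : ℝ) * |bet f n| ≤ 2 * (dv n * Real.exp (-π * n * U)) := by
  rcases Nat.eq_zero_or_pos n with rfl | hn
  · simp only [bet, hC.zero]
    simp
    have := dv_nonneg 0
    positivity
  have hnR : (0 : ℝ) < n := by exact_mod_cast hn
  have hs : 0 < √(n : ℝ) := Real.sqrt_pos.2 hnR
  have hss : √(n : ℝ) * √(n : ℝ) = n := Real.mul_self_sqrt hnR.le
  have hpi := Real.pi_gt_three
  have h1 := abs_int_le (f := f) (c := π * n) hU (by positivity) hf1 hf0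
  have e1 : ∀ u : ℝ, -(π * n) * u = -π * n * u := fun u => by ring
  simp only [e1] at h1
  unfold bet
  rw [abs_mul, abs_mul, abs_of_pos (show (0 : ℝ) < 4 by norm_num)]
  have hd := dv_nonneg n
  calc √(n : ℝ) * (4 * |(ca n : ℝ)| * |∫ u in Ioi (0 : ℝ), Real.exp (-π * n * u) * f u|)
      ≤ √(n : ℝ) * (4 * (dv n * √(n : ℝ)) * (Real.exp (-π * n * U) / (π * n))) := by
        gcongr
        exact hC.bound n
    _ = (4 / π) * (dv n * Real.exp (-π * n * U)) := by
        have : √(n : ℝ) * (4 * (dv n * √(n : ℝ)) * (Real.exp (-π * n * U) / (π * n))) =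
          4 * dv n * Real.exp (-π * n * U) * (√(n : ℝ) * √(n : ℝ)) / (π * n) := by ring
        rw [this, hss]
        field_simp
    _ ≤ 2 * (dv n * Real.exp (-π * n * U)) := by
        gcongr
        rw [div_le_iff₀ (by positivity)]
        linarith

theorem abs_bet_le' (hC : StCoef) {f : ℝ → ℝ} {U : ℝ} (hU : 0 < U) (hf1 : ∀ u, |f u| ≤ 1)
    (hf0 : ∀ u, u < U → f u = 0) (n : ℕ) :
    |bet f n| ≤ 2 * (dv n * Real.exp (-π * n * U)) := by
  rcases Nat.eq_zero_or_pos n with rfl | hn
  · simp only [bet, hC.zero]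
    simp
    have := dv_nonneg 0
    positivity
  refine le_trans ?_ (abs_bet_le hC hU hf1 hf0 n)
  have : 1 ≤ √(n : ℝ) := by
    rw [Real.one_le_sqrt]
    exact_mod_cast hn
  nlinarith [abs_nonneg (bet f n)]

theorem dv_le (n : ℕ) : dv n ≤ n := by
  unfold dv
  exact_mod_cast Nat.card_divisors_le_self n

theorem summable_dv_pow (K : ℕ) {U : ℝ} (hU : 0 < U) :
    Summable fun n : ℕ => dv n ^ K * Real.exp (-π * n * U) := by
  have h1 := Real.summable_pow_mul_exp_neg_nat_mul K (r := π * U) (by positivity)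
  refine h1.of_nonneg_of_le (fun n => ?_) (fun n => ?_)
  · have := dv_nonneg n
    positivity
  · have e1 : -π * n * U = -(π * U) * n := by ring
    rw [e1]
    have := dv_nonneg n
    have h2 := dv_le n
    gcongr

theorem summable_bet (hC : StCoef) {f : ℝ → ℝ} {U : ℝ} (hU : 0 < U) (hf1 : ∀ u, |f u| ≤ 1)
    (hf0 : ∀ u, u < U → f u = 0) : Summable fun n : ℕ => |bet f n| := by
  have h1 := summable_dv_pow 1 hU
  simp only [pow_one] at h1
  exact Summable.of_nonneg_of_le (fun n => abs_nonneg _)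
    (fun n => abs_bet_le' hC hU hf1 hf0 n) (h1.mul_left 2)

theorem abs_chi_le (h : ℤ) (n : ℕ) : |chi h n| ≤ 1 := by
  unfold chi
  rcases jacobiSym.trichotomy h n with h0 | h0 | h0 <;> simp [h0]

theorem summable_bet_chi (hC : StCoef) {f : ℝ → ℝ} {U : ℝ} (hU : 0 < U) (hf1 : ∀ u, |f u| ≤ 1)
    (hf0 : ∀ u, u < U → f u = 0) (h : ℤ) : Summable fun n : ℕ => bet f n * chi h n := by
  refine Summable.of_norm_bounded (summable_bet hC hU hf1 hf0) fun n => ?_
  rw [norm_mul, Real.norm_eq_abs, Real.norm_eq_abs]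
  exact mul_le_of_le_one_right (abs_nonneg _) (abs_chi_le _ _)

/-- `Fn f h = ∑ bet f n χ_h(n)` -/
theorem Fn_eq (hC : StCoef) {f : ℝ → ℝ} {U : ℝ} (hU : 0 < U) (hfm : Measurable f)
    (hf1 : ∀ u, |f u| ≤ 1) (hf0 : ∀ u, u < U → f u = 0) (h : ℤ) :
    Fn f h = ∑' n : ℕ, bet f n * chi h n := by
  unfold Fn
  set F : ℕ → ℝ → ℝ := fun n u => 4 * ((ca n : ℝ) * chi h n) * (Real.exp (-π * n * u) * f u)
    with hF
  have hpi := Real.pi_pos
  have hint : ∀ n : ℕ, IntegrableOn (F n) (Ioi 0) := by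
    intro n
    rcases Nat.eq_zero_or_pos n with rfl | hn
    · have : F 0 = fun _ => 0 := by
        funext u
        simp only [hF, hC.zero]
        simp
      rw [this]
      exact integrable_zero _ _ _
    have hnR : (0 : ℝ) < n := by exact_mod_cast hn
    refine Integrable.const_mul ?_ _
    have h1 : IntegrableOn (fun u : ℝ => Real.exp (-(π * n) * u)) (Ioi 0) :=
      exp_neg_integrableOn_Ioi 0 (by positivity)
    refine Integrable.mono h1 ?_ ?_
    · exact ((by fun_prop : Measurable fun u : ℝ => Real.exp (-π * n * u)).mul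
        hfm).aestronglyMeasurable
    · refine Filter.Eventually.of_forall fun u => ?_
      rw [norm_mul, Real.norm_of_nonneg (Real.exp_pos _).le,
        Real.norm_of_nonneg (Real.exp_pos _).le]
      have e : -(π * n) * u = -π * n * u := by ring
      rw [e]
      exact mul_le_of_le_one_right (Real.exp_pos _).le (hf1 u)
  have hval : ∀ n : ℕ, ∫ u in Ioi (0 : ℝ), F n u = bet f n * chi h n := by
    intro n
    simp only [hF]
    rw [integral_const_mul]
    unfold bet
    ring
  have hnorm : Summable fun n : ℕ => ∫ u in Ioi (0 : ℝ), ‖F n u‖ := by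
    have h1 := summable_dv_pow 1 hU
    simp only [pow_one] at h1
    refine Summable.of_nonneg_of_le (fun n => integral_nonneg fun u => norm_nonneg _) (fun n => ?_)
      (h1.mul_left 2)
    -- the norm is `bet` for `|f|`
    have habs1 : ∀ u, |(|f u|)| ≤ 1 := fun u => by rw [abs_abs]; exact hf1 u
    have habs0 : ∀ u, u < U → |f u| = 0 := fun u hu => by rw [hf0 u hu, abs_zero]
    have h2 := abs_bet_le' hC (f := fun u => |f u|) hU habs1 habs0 n
    refine le_trans ?_ h2
    have e : ∫ u in Ioi (0 : ℝ), ‖F n u‖ =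
        4 * (|(ca n : ℝ)| * |chi h n|) * ∫ u in Ioi (0 : ℝ), Real.exp (-π * n * u) * |f u| := by
      rw [← integral_const_mul]
      refine setIntegral_congr_fun measurableSet_Ioi fun u _ => ?_
      simp only [hF]
      rw [norm_mul, norm_mul, norm_mul, norm_mul, Real.norm_eq_abs, Real.norm_eq_abs,
        Real.norm_eq_abs, Real.norm_eq_abs, Real.norm_eq_abs,
        abs_of_pos (show (0 : ℝ) < 4 by norm_num), abs_of_pos (Real.exp_pos _)]
    have hI : 0 ≤ ∫ u in Ioi (0 : ℝ), Real.exp (-π * n * u) * |f u| :=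
      integral_nonneg fun u => by positivity
    rw [e]
    unfold bet
    rw [abs_mul, abs_mul, abs_of_pos (show (0 : ℝ) < 4 by norm_num), abs_of_nonneg hI]
    refine mul_le_mul_of_nonneg_right ?_ hI
    have := abs_chi_le h n
    nlinarith [abs_nonneg (ca n : ℝ)]
  have hmain := integral_tsum_of_summable_integral_norm hint hnorm
  simp only [hval] at hmain
  rw [hmain]
  refine setIntegral_congr_fun measurableSet_Ioi fun u _ => ?_
  simp only [hF, theta]
  rw [mul_assoc, ← tsum_mul_right, ← tsum_mul_left]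
  refine tsum_congr fun n => ?_
  ring

end P004.H3
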