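import Vale.Agent.P004.H503.Iface3
import Vale.Agent.P004.H1
import Vale.Agent.P004.D2

/-!
# P004/H3: Poisson summation with the weight `ah` for `n = g² q` (after helper253's `Tw1.lean`)
-/

open Real MeasureTheory Set Filter Topology
open scoped ENNReal NumberTheorySymbols ArithmeticFunction.Moebius

namespace P004.H3

/-- Poisson summation with the weight `ah`, for `n = g² q`. -/
lemma pair_gen (hP : StPois) {g q : ℕ} (hg0 : g ≠ 0) (hq : Squarefree q)
    (hqp : ∀ p : ℕ, p.Prime → p ∣ q → p % 4 = 1) {H : ℝ} (hH : 0 < H) :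
    ∑' h : ℤ, H1.ah H h * chi h (g * g * q) =
      H * ∑ d ∈ g.divisors, (μ d : ℝ) / (d * √(q : ℝ)) *
        ∑' j : ℤ, if (d : ℤ) ∣ j then chi j q * Gk (|(j : ℝ)| * H / ((d : ℝ) ^ 2 * q)) else 0 := by
  rw [← H1.integral_eq_tsum hH]
  have hq0 : q ≠ 0 := hq.ne_zero
  have hqpos : (0 : ℝ) < q := by exact_mod_cast Nat.pos_of_ne_zero hq0
  set F : ℤ → ℝ → ℝ := fun j x => ∑ d ∈ g.divisors, H * ((μ d : ℝ) / (d * √(q : ℝ))) *
    (if (d : ℤ) ∣ j then chi j q * (x ^ 7 * rexp (-x) *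
      rexp (-π * (|(j : ℝ)| * H / ((d : ℝ) ^ 2 * q)) ^ 2 / x ^ 16)) else 0) with hF
  have hint1 : ∀ (j : ℤ) (d : ℕ), IntegrableOn (fun x => H * ((μ d : ℝ) / (d * √(q : ℝ))) *
    (if (d : ℤ) ∣ j then chi j q * (x ^ 7 * rexp (-x) *
      rexp (-π * (|(j : ℝ)| * H / ((d : ℝ) ^ 2 * q)) ^ 2 / x ^ 16)) else 0)) (Ioi 0) := fun j d => by
    refine Integrable.const_mul ?_ _
    split_ifs
    · exact (gk_int _).const_mul _
    · exact integrable_zero _ _ _
  have hval1 : ∀ (j : ℤ) (d : ℕ), ∫ x in Ioi (0 : ℝ), H * ((μ d : ℝ) / (d * √(q : ℝ))) *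
    (if (d : ℤ) ∣ j then chi j q * (x ^ 7 * rexp (-x) *
      rexp (-π * (|(j : ℝ)| * H / ((d : ℝ) ^ 2 * q)) ^ 2 / x ^ 16)) else 0) =
      H * ((μ d : ℝ) / (d * √(q : ℝ))) *
      (if (d : ℤ) ∣ j then chi j q * Gk (|(j : ℝ)| * H / ((d : ℝ) ^ 2 * q)) else 0) := fun j d => by
    rw [integral_const_mul]
    congr 1
    split_ifs
    · rw [integral_const_mul]
      rfl
    · simp
  have hint : ∀ j, IntegrableOn (F j) (Ioi 0) := fun j =>
    integrable_finsetSum _ fun d _ => hint1 j d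
  have hval : ∀ j, ∫ x in Ioi (0 : ℝ), F j x = ∑ d ∈ g.divisors, H * ((μ d : ℝ) / (d * √(q : ℝ))) *
      (if (d : ℤ) ∣ j then chi j q * Gk (|(j : ℝ)| * H / ((d : ℝ) ^ 2 * q)) else 0) := fun j => by
    rw [hF, integral_finsetSum _ fun d _ => hint1 j d]
    exact Finset.sum_congr rfl fun d _ => hval1 j d
  have hsumd : ∀ d ∈ g.divisors, Summable fun j : ℤ => |H * ((μ d : ℝ) / (d * √(q : ℝ)))| *
      Gk (|(j : ℝ)| * H / ((d : ℝ) ^ 2 * q)) := fun d hd => by
    have hdpos : (0 : ℝ) < d := by exact_mod_cast Nat.pos_of_mem_divisors hd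
    refine ((summable_Gk (c := H / ((d : ℝ) ^ 2 * q)) (by positivity)).mul_left
      |H * ((μ d : ℝ) / (d * √(q : ℝ)))|).congr fun j => ?_
    rw [mul_div_assoc]
  have hnorm : Summable fun j => ∫ x in Ioi (0 : ℝ), ‖F j x‖ := by
    refine Summable.of_norm_bounded (summable_sum hsumd) fun j => ?_
    rw [Real.norm_of_nonneg (integral_nonneg fun _ => norm_nonneg _)]
    have hG : ∀ d ∈ g.divisors, IntegrableOn (fun x : ℝ => |H * ((μ d : ℝ) / (d * √(q : ℝ)))| *
        (x ^ 7 * rexp (-x) * rexp (-π * (|(j : ℝ)| * H / ((d : ℝ) ^ 2 * q)) ^ 2 / x ^ 16)))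
        (Ioi 0) := fun d _ => (gk_int _).const_mul _
    calc ∫ x in Ioi (0 : ℝ), ‖F j x‖ ≤ ∫ x in Ioi (0 : ℝ), ∑ d ∈ g.divisors,
          |H * ((μ d : ℝ) / (d * √(q : ℝ)))| * (x ^ 7 * rexp (-x) *
            rexp (-π * (|(j : ℝ)| * H / ((d : ℝ) ^ 2 * q)) ^ 2 / x ^ 16)) := by
          refine setIntegral_mono_on (hint j).norm (integrable_finsetSum _ hG)
            measurableSet_Ioi fun x hx => ?_
          have hx' : (0 : ℝ) < x := hx
          refine (norm_sum_le _ _).trans (Finset.sum_le_sum fun d _ => ?_)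
          rw [norm_mul, Real.norm_eq_abs]
          refine mul_le_mul_of_nonneg_left ?_ (abs_nonneg _)
          split_ifs
          · rw [norm_mul, Real.norm_eq_abs, Real.norm_of_nonneg (by positivity)]
            exact mul_le_of_le_one_left (by positivity) (chi_bound _ _)
          · rw [norm_zero]
            positivity
      _ = _ := by
          rw [integral_finsetSum _ hG]
          exact Finset.sum_congr rfl fun d _ => by rw [integral_const_mul]; rfl
  have hmain := integral_tsum_of_summable_integral_norm hint hnorm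
  rw [setIntegral_congr_fun measurableSet_Ioi (g := fun x => ∑' j, F j x)
    (fun x hx => pair_point hP hg0 hq hqp hH hx), ← hmain]
  simp only [hval]
  have hsum2 : ∀ d ∈ g.divisors, Summable fun j : ℤ => H * ((μ d : ℝ) / (d * √(q : ℝ))) *
      (if (d : ℤ) ∣ j then chi j q * Gk (|(j : ℝ)| * H / ((d : ℝ) ^ 2 * q)) else 0) := fun d hd => by
    refine Summable.of_norm_bounded (hsumd d hd) fun j => ?_
    rw [norm_mul, Real.norm_eq_abs]
    refine mul_le_mul_of_nonneg_left ?_ (abs_nonneg _)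
    split_ifs
    · rw [norm_mul, Real.norm_eq_abs, Real.norm_of_nonneg (gk_nonneg _)]
      exact mul_le_of_le_one_left (gk_nonneg _) (chi_bound _ _)
    · rw [norm_zero]
      exact gk_nonneg _
  rw [Summable.tsum_finsetSum hsum2, Finset.mul_sum]
  refine Finset.sum_congr rfl fun d _ => ?_
  rw [tsum_mul_left, mul_assoc]

lemma chi_zero {n : ℕ} (h0 : n ≠ 0) (h1 : n ≠ 1) : chi 0 n = 0 := by
  unfold chi
  rw [jacobiSym.zero_left (by omega)]
  simp

lemma chi_one (m : ℤ) : chi m 1 = 1 := by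
  unfold chi
  simp

lemma Gk_zero : Gk 0 = 5040 := by
  unfold Gk
  have h1 := Real.Gamma_eq_integral (s := 8) (by norm_num)
  have h2 : Real.Gamma 8 = 5040 := by
    have := Real.Gamma_nat_eq_factorial 7
    norm_num [Nat.factorial] at this ⊢
  rw [h2] at h1
  rw [h1]
  refine setIntegral_congr_fun measurableSet_Ioi fun x hx => ?_
  have : (8 : ℝ) - 1 = ((7 : ℕ) : ℝ) := by norm_num
  simp only [this, Real.rpow_natCast]
  norm_num
  ring

lemma isSquare_iff {g q : ℕ} (hg : g ≠ 0) (hq : Squarefree q) : IsSquare (g * g * q) ↔ q = 1 := by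
  constructor
  · rintro ⟨a, ha⟩
    have h1 : g * g ∣ a * a := ⟨q, ha.symm⟩
    have h2 : g ∣ a := by
      rw [← sq, ← sq] at h1
      exact (Nat.pow_dvd_pow_iff (by norm_num)).1 h1
    obtain ⟨b, rfl⟩ := h2
    have h3 : q = b * b := by
      have : g * g * q = g * g * (b * b) := by rw [ha]; ring
      exact Nat.eq_of_mul_eq_mul_left (Nat.pos_of_ne_zero (Nat.mul_ne_zero hg hg)) this
    have h4 : IsUnit b := hq b ⟨1, by rw [h3]; ring⟩
    rw [h3, Nat.isUnit_iff.1 h4]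
  · rintro rfl
    exact ⟨g, by ring⟩

lemma sum_moebius_div (g : ℕ) (hg : g ≠ 0) :
    ∑ d ∈ g.divisors, (μ d : ℝ) / d = ∏ p ∈ g.primeFactors, (1 - 1 / (p : ℝ)) := by
  have h1 := Nat.totient_eq_mul_prod_factors g
  have h2 : ∑ d ∈ g.divisors, (μ d : ℚ) / d = ∏ p ∈ g.primeFactors, (1 - 1 / (p : ℚ)) := by
    have h3 : ∀ n : ℕ, n > 0 → ∑ i ∈ n.divisors, (fun n : ℕ => (Nat.totient n : ℤ)) i = (n : ℤ) := by
      intro n _
      have := congrArg (fun z : ℕ => (z : ℤ)) (Nat.sum_totient n)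
      simp only [Nat.cast_sum] at this
      exact this
    have h4 := (ArithmeticFunction.sum_eq_iff_sum_mul_moebius_eq (R := ℤ)
      (f := fun n : ℕ => (Nat.totient n : ℤ)) (g := fun n : ℕ => (n : ℤ))).1 h3 g
      (Nat.pos_of_ne_zero hg)
    have h5 : (∑ x ∈ g.divisorsAntidiagonal, ((μ x.1 : ℤ) : ℚ) * (x.2 : ℚ)) = (Nat.totient g : ℚ) := by
      have := congrArg (fun z : ℤ => (z : ℚ)) h4
      push_cast at this
      rw [← this]
    rw [Nat.sum_divisorsAntidiagonal (fun d e => ((μ d : ℤ) : ℚ) * (e : ℚ)), h1] at h5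
    have hg' : (g : ℚ) ≠ 0 := by exact_mod_cast hg
    have h6 : ∑ d ∈ g.divisors, ((μ d : ℤ) : ℚ) * ((g / d : ℕ) : ℚ) =
        g * ∑ d ∈ g.divisors, (μ d : ℚ) / d := by
      rw [Finset.mul_sum]
      refine Finset.sum_congr rfl fun d hd => ?_
      have hd0 : (d : ℚ) ≠ 0 := by exact_mod_cast (Nat.pos_of_mem_divisors hd).ne'
      rw [Nat.cast_div (Nat.dvd_of_mem_divisors hd) hd0]
      field_simp
    rw [h6] at h5
    have h7 := mul_left_cancel₀ hg' h5
    rw [h7]
    refine Finset.prod_congr rfl fun p _ => ?_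
    rw [one_div]
  have := congrArg (fun z : ℚ => (z : ℝ)) h2
  push_cast at this
  exact this

/-- `ρ (g² q)` -/
lemma rho_eq {g q : ℕ} (hg : g ≠ 0) (hq : Squarefree q) :
    rho (g * g * q) = ∑ d ∈ g.divisors, (μ d : ℝ) / (d * √(q : ℝ)) * chi 0 q := by
  unfold rho
  have hne : g * g * q ≠ 0 := Nat.mul_ne_zero (Nat.mul_ne_zero hg hg) hq.ne_zero
  simp only [isSquare_iff hg hq, hne, ne_eq, not_false_eq_true, true_and]
  split_ifs with h
  · subst h
    simp only [chi_one, mul_one, Nat.cast_one, Real.sqrt_one]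
    rw [sum_moebius_div g hg, Nat.primeFactors_mul hg hg, Finset.union_self]
  · rw [chi_zero hq.ne_zero h]
    simp

/-- the deviation of the sum from its mean -/
noncomputable def Off (H : ℝ) (n : ℕ) : ℝ := ∑' h : ℤ, H1.ah H h * chi h n - 5040 * H * rho n

lemma off_eq (hP : StPois) {g q : ℕ} (hg0 : g ≠ 0) (hq : Squarefree q)
    (hqp : ∀ p : ℕ, p.Prime → p ∣ q → p % 4 = 1) {H : ℝ} (hH : 0 < H) :
    Off H (g * g * q) = 2 * H * ∑' j : ℕ, ∑ d ∈ g.divisors, (μ d : ℝ) / (d * √(q : ℝ)) *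
      (if d ∣ (j + 1) then chi ((j + 1 : ℕ) : ℤ) q *
        Gk (((j + 1 : ℕ) : ℝ) * H / ((d : ℝ) ^ 2 * q)) else 0) := by
  have hq0 : q ≠ 0 := hq.ne_zero
  have hqpos : (0 : ℝ) < q := by exact_mod_cast Nat.pos_of_ne_zero hq0
  unfold Off
  rw [pair_gen hP hg0 hq hqp hH, rho_eq hg0 hq]
  have hs : ∀ d ∈ g.divisors, Summable fun j : ℤ => (if (d : ℤ) ∣ j then chi j q *
      Gk (|(j : ℝ)| * H / ((d : ℝ) ^ 2 * q)) else 0) := fun d hd => by
    have hdpos : (0 : ℝ) < d := by exact_mod_cast Nat.pos_of_mem_divisors hd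
    refine Summable.of_norm_bounded (summable_Gk (c := H / ((d : ℝ) ^ 2 * q)) (by positivity))
      fun j => ?_
    rw [mul_div_assoc]
    split_ifs
    · rw [norm_mul, Real.norm_eq_abs, Real.norm_of_nonneg (gk_nonneg _)]
      exact mul_le_of_le_one_left (gk_nonneg _) (chi_bound _ _)
    · rw [norm_zero]
      exact gk_nonneg _
  have key : ∀ d ∈ g.divisors, ∑' j : ℤ, (if (d : ℤ) ∣ j then chi j q *
      Gk (|(j : ℝ)| * H / ((d : ℝ) ^ 2 * q)) else 0) = chi 0 q * 5040 +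
      2 * ∑' j : ℕ, (if d ∣ (j + 1) then chi ((j + 1 : ℕ) : ℤ) q *
        Gk (((j + 1 : ℕ) : ℝ) * H / ((d : ℝ) ^ 2 * q)) else 0) := by
    intro d hd
    set f : ℤ → ℝ := fun j : ℤ => (if (d : ℤ) ∣ j then chi j q *
      Gk (|(j : ℝ)| * H / ((d : ℝ) ^ 2 * q)) else 0) with hf
    have hsum := hs d hd
    have h1 : ∀ n : ℕ, f (-((n : ℤ) + 1)) = f ((n : ℤ) + 1) := by
      intro n
      simp only [hf, dvd_neg, Int.cast_neg, abs_neg, H1.chi_neg _ hq0 hqp]
    have h2 : f 0 = chi 0 q * 5040 := by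
      simp only [hf]
      rw [if_pos (dvd_zero _)]
      simp [Gk_zero]
    have h3 : ∀ n : ℕ, f ((n : ℤ) + 1) = (if d ∣ (n + 1) then chi ((n + 1 : ℕ) : ℤ) q *
        Gk (((n + 1 : ℕ) : ℝ) * H / ((d : ℝ) ^ 2 * q)) else 0) := by
      intro n
      simp only [hf]
      have e1 : ((d : ℤ) ∣ (n : ℤ) + 1) ↔ d ∣ n + 1 := by
        rw [← Int.natCast_dvd_natCast]
        push_cast
        rfl
      have e2 : |(((n : ℤ) + 1 : ℤ) : ℝ)| = ((n + 1 : ℕ) : ℝ) := by
        push_cast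
        rw [abs_of_nonneg (by positivity)]
      simp only [e1, e2]
      push_cast
      rfl
    have hs1 : Summable fun n : ℕ => f (n : ℤ) :=
      hsum.comp_injective Nat.cast_injective
    have hs2 : Summable fun n : ℕ => f (-((n : ℤ) + 1)) := by
      refine hsum.comp_injective (i := fun n : ℕ => -((n : ℤ) + 1)) ?_
      intro a b hab
      simp only [neg_inj, add_left_inj, Nat.cast_inj] at hab
      exact hab
    rw [tsum_of_nat_of_neg_add_one hs1 hs2, hs1.tsum_eq_zero_add]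
    have h4 : ∑' n : ℕ, f (((n + 1 : ℕ) : ℤ)) = ∑' n : ℕ, f ((n : ℤ) + 1) := by
      refine tsum_congr fun n => ?_
      push_cast
      rfl
    rw [h4, tsum_congr h1, tsum_congr h3]
    have : f ((0 : ℕ) : ℤ) = f 0 := rfl
    rw [this, h2]
    ring
  rw [Summable.tsum_finsetSum]
  · rw [Finset.sum_congr rfl fun d hd => by rw [key d hd]]
    simp only [tsum_mul_left, mul_add, Finset.sum_add_distrib]
    rw [Finset.mul_sum, Finset.mul_sum, Finset.mul_sum, Finset.mul_sum]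
    have e : ∀ A B C : ℝ, A = C → A + B - C = B := fun A B C h => by rw [h]; ring
    rw [e]
    · refine Finset.sum_congr rfl fun d _ => ?_
      ring
    · refine Finset.sum_congr rfl fun d _ => ?_
      ring
  · intro d hd
    refine Summable.mul_left _ ?_
    have h5 : Summable fun n : ℕ => (fun j : ℤ => (if (d : ℤ) ∣ j then chi j q *
      Gk (|(j : ℝ)| * H / ((d : ℝ) ^ 2 * q)) else 0)) ((n : ℤ) + 1) := by
      refine (hs d hd).comp_injective (i := fun n : ℕ => (n : ℤ) + 1) ?_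
      intro a b hab
      simpa using hab
    refine h5.congr fun n => ?_
    have e1 : ((d : ℤ) ∣ (n : ℤ) + 1) ↔ d ∣ n + 1 := by
      rw [← Int.natCast_dvd_natCast]
      push_cast
      rfl
    have e2 : |(((n : ℤ) + 1 : ℤ) : ℝ)| = ((n + 1 : ℕ) : ℝ) := by
      push_cast
      rw [abs_of_nonneg (by positivity)]
    simp only [e1, e2]
    push_cast
    rfl

end P004.H3
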