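import Vale.Agent.P004.D
import Vale.Agent.P004.D2

/-!
# P004: Poisson summation for `(h/q)` for every odd squarefree `q`
-/

open Real MeasureTheory Set Filter Topology
open Complex (I)
open scoped NumberTheorySymbols ArithmeticFunction.Moebius

namespace P004

/-- Poisson summation for `(h/q)`, `q` odd and squarefree (both sides vanish for `q ≡ 3 mod 4`) -/
def StPoisG : Prop :=
  ∀ q : ℕ, Squarefree q → Odd q → ∀ T : ℝ, 0 < T →
    ∑' h : ℤ, Real.exp (-π * (h : ℝ) ^ 2 / T ^ 2) * chi h q =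
      T / √(q : ℝ) * ∑' j : ℤ, Real.exp (-π * (j : ℝ) ^ 2 * T ^ 2 / (q : ℝ) ^ 2) * chi j q

/-- the mixed Poisson formula for a pair of odd squarefree `n₁, n₂` -/
def StPairG : Prop :=
  ∀ n₁ n₂ : ℕ, Squarefree n₁ → Squarefree n₂ → Odd n₁ → Odd n₂ → ∀ H : ℝ, 0 < H →
    ∫ x in Ioi (0 : ℝ), x ^ 15 * Real.exp (-x) *
        ∑' h : ℤ, Real.exp (-π * (h : ℝ) ^ 2 * x ^ 16 / H ^ 2) * chi h (n₁ * n₂) =
      H * ∑ d ∈ (n₁.gcd n₂).divisors, (ArithmeticFunction.moebius d : ℝ) /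
          (d * √(((n₁ / n₁.gcd n₂) * (n₂ / n₁.gcd n₂) : ℕ) : ℝ)) *
        ∑' j : ℤ, if (d : ℤ) ∣ j then
          chi j ((n₁ / n₁.gcd n₂) * (n₂ / n₁.gcd n₂)) *
            Gk (|(j : ℝ)| * H / ((d : ℝ) ^ 2 * (((n₁ / n₁.gcd n₂) * (n₂ / n₁.gcd n₂) : ℕ) : ℝ)))
          else 0

/-- the two finite sums attached to `q`, with a common constant `ε` -/
def GG (q : ℕ) [NeZero q] (ε : ℂ) : Prop :=
  (∀ k : ℤ, ∑ a : ZMod q, ((J((a.val : ℤ) | q) : ℤ) : ℂ) * ZMod.stdAddChar (a * (k : ZMod q)) =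
    ((J(k | q) : ℤ) : ℂ) * ε) ∧
  (∀ k : ℤ, IsCoprime k (q : ℤ) → ∑ a : ZMod q, (ZMod.stdAddChar (a * a * (k : ZMod q)) : ℂ) =
    ((J(k | q) : ℤ) : ℂ) * ε)

lemma GG_one : GG 1 1 := by
  have h : ∀ x : ZMod 1, (ZMod.stdAddChar x : ℂ) = 1 := fun x => by
    rw [Subsingleton.elim x 0, AddChar.map_zero_eq_one]
  exact ⟨fun k => by simp [jacobiSym.one_right, h], fun k _ => by simp [jacobiSym.one_right, h]⟩

lemma GG_prime (p : ℕ) [Fact p.Prime] (hp : p ≠ 2) : ∃ ε : ℂ, GG p ε := by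
  have hp2 : ringChar (ZMod p) ≠ 2 := by
    rw [ZMod.ringChar_zmod_n]
    exact hp
  set χ := quadraticChar (ZMod p) with hχ
  have hJ : ∀ a : ℤ, J(a | p) = χ (a : ZMod p) := fun a => by
    rw [← jacobiSym.legendreSym.to_jacobiSym]
    rfl
  have hJv : ∀ a : ZMod p, J((a.val : ℤ) | p) = χ a := fun a => by
    rw [hJ]
    congr 1
    simp
  set g : ℂ := ∑ b : ZMod p, ((χ b : ℤ) : ℂ) * ZMod.stdAddChar b with hg
  have hfirst : ∀ k : ℤ, ∑ a : ZMod p, ((χ a : ℤ) : ℂ) * ZMod.stdAddChar (a * (k : ZMod p)) =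
      ((χ (k : ZMod p) : ℤ) : ℂ) * g := by
    intro k
    by_cases hk : (k : ZMod p) = 0
    · rw [hk]
      have h0 : ∑ a : ZMod p, χ a = 0 := quadraticChar_sum_zero hp2
      simp only [mul_zero, AddChar.map_zero_eq_one, mul_one, MulChar.map_zero, Int.cast_zero,
        zero_mul]
      exact_mod_cast h0
    · have h1 : ∀ a : ZMod p, χ a = χ (k : ZMod p) * χ (a * k) := fun a => by
        rw [map_mul, mul_left_comm, ← sq, quadraticChar_sq_one hk, mul_one]
      rw [hg, Finset.mul_sum]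
      rw [← Equiv.sum_comp (Equiv.mulRight₀ (k : ZMod p) hk)
        (fun b => ((χ (k : ZMod p) : ℤ) : ℂ) * (((χ b : ℤ) : ℂ) * ZMod.stdAddChar b))]
      refine Finset.sum_congr rfl fun a _ => ?_
      rw [h1 a]
      have h2 : (Equiv.mulRight₀ (k : ZMod p) hk) a = a * k := rfl
      rw [h2]
      push_cast
      ring
  refine ⟨g, fun k => ?_, fun k hk => ?_⟩
  · simp only [hJv]
    rw [hJ]
    exact hfirst k
  · have hk0 : (k : ZMod p) ≠ 0 := by
      intro h
      rw [ZMod.intCast_zmod_eq_zero_iff_dvd] at h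
      have h1 : IsUnit (p : ℤ) := hk.isUnit_of_dvd' h dvd_rfl
      have h2 := Int.isUnit_iff.1 h1
      have h3 := (Fact.out : p.Prime).two_le
      omega
    have hsum0 : ∑ b : ZMod p, (ZMod.stdAddChar (b * (k : ZMod p)) : ℂ) = 0 := by
      have e : ∑ b : ZMod p, (ZMod.stdAddChar (b * (k : ZMod p)) : ℂ) =
          ∑ b : ZMod p, (ZMod.stdAddChar b : ℂ) :=
        Equiv.sum_comp (Equiv.mulRight₀ (k : ZMod p) hk0) (fun b => (ZMod.stdAddChar b : ℂ))
      rw [e]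
      refine AddChar.sum_eq_zero_of_ne_one ?_
      have := ZMod.isPrimitive_stdAddChar p (one_ne_zero : (1 : ZMod p) ≠ 0)
      simpa using this
    have h1 : ∑ a : ZMod p, (ZMod.stdAddChar (a * a * (k : ZMod p)) : ℂ) =
        ∑ b : ZMod p, ∑ a ∈ Finset.univ.filter (fun a => a ^ 2 = b),
          ZMod.stdAddChar (a * a * (k : ZMod p)) :=
      (Finset.sum_fiberwise _ _ _).symm
    rw [h1]
    have h2 : ∀ b : ZMod p, ∑ a ∈ Finset.univ.filter (fun a => a ^ 2 = b),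
        (ZMod.stdAddChar (a * a * (k : ZMod p)) : ℂ) =
        ((χ b : ℤ) + 1 : ℂ) * ZMod.stdAddChar (b * (k : ZMod p)) := fun b => by
      rw [Finset.sum_congr rfl fun a ha => by rw [← pow_two, (Finset.mem_filter.1 ha).2],
        Finset.sum_const, nsmul_eq_mul]
      congr 1
      have := quadraticChar_card_sqrts hp2 b
      rw [← hχ] at this
      have h3 : ((Finset.univ.filter fun a : ZMod p => a ^ 2 = b).card : ℤ) = χ b + 1 := by
        rw [← this]
        congr 2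
        ext x
        simp
      exact_mod_cast h3
    simp only [h2, add_mul, one_mul, Finset.sum_add_distrib, hsum0, add_zero]
    rw [hfirst k, hJ]

lemma GG_mul {m n : ℕ} [NeZero m] [NeZero n] (h : m.Coprime n) {εm εn : ℂ} (Fm : GG m εm)
    (Fn : GG n εn) : GG (m * n) (((J(n | m) * J(m | n) : ℤ) : ℂ) * (εm * εn)) := by
  have hm0 : (m : ℂ) ≠ 0 := by exact_mod_cast NeZero.ne m
  have hn0 : (n : ℂ) ≠ 0 := by exact_mod_cast NeZero.ne n
  have hJ : ∀ x : ZMod n, ∀ y : ZMod m, J(((crt m n (x, y)).val : ℤ) | m * n) =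
      (J(n | m) * J(m | n)) * (J((x.val : ℤ) | n) * J((y.val : ℤ) | m)) := fun x y => by
    have h1 : J(((crt m n (x, y)).val : ℤ) | m * n) =
        J(((m * x.val + n * y.val : ℕ) : ℤ) | m * n) := by
      apply jacobiSym.mod_left'
      unfold crt
      rw [ZMod.val_natCast]
      push_cast
      exact Int.emod_emod_of_dvd _ dvd_rfl
    rw [h1, jacobiSym.mul_right]
    have h2 : J(((m * x.val + n * y.val : ℕ) : ℤ) | m) = J(n | m) * J((y.val : ℤ) | m) := by
      rw [← jacobiSym.mul_left]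
      apply jacobiSym.mod_left'
      push_cast
      simp
    have h3 : J(((m * x.val + n * y.val : ℕ) : ℤ) | n) = J(m | n) * J((x.val : ℤ) | n) := by
      rw [← jacobiSym.mul_left]
      apply jacobiSym.mod_left'
      push_cast
      simp
    rw [h2, h3]
    ring
  have key : ∀ x : ZMod n, ∀ y : ZMod m, ∀ k : ℤ,
      (ZMod.stdAddChar (crt m n (x, y) * (k : ZMod (m * n))) : ℂ) =
      ZMod.stdAddChar (x * (k : ZMod n)) * ZMod.stdAddChar (y * (k : ZMod m)) := fun x y k => by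
    have e1 : crt m n (x, y) * (k : ZMod (m * n)) =
        (((m * x.val + n * y.val) * k : ℤ) : ZMod (m * n)) := by
      unfold crt
      push_cast
      ring
    have e2 : x * (k : ZMod n) = ((x.val * k : ℤ) : ZMod n) := by simp
    have e3 : y * (k : ZMod m) = ((y.val * k : ℤ) : ZMod m) := by simp
    rw [e1, e2, e3, ZMod.stdAddChar_coe, ZMod.stdAddChar_coe, ZMod.stdAddChar_coe, ← Complex.exp_add]
    congr 1
    push_cast
    field_simp
  have key2 : ∀ x : ZMod n, ∀ y : ZMod m, ∀ k : ℤ,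
      (ZMod.stdAddChar (crt m n (x, y) * crt m n (x, y) * (k : ZMod (m * n))) : ℂ) =
      ZMod.stdAddChar (x * x * ((m * k : ℤ) : ZMod n)) *
        ZMod.stdAddChar (y * y * ((n * k : ℤ) : ZMod m)) := fun x y k => by
    have e1 : crt m n (x, y) * crt m n (x, y) * (k : ZMod (m * n)) =
        (((m * x.val + n * y.val) ^ 2 * k : ℤ) : ZMod (m * n)) := by
      unfold crt
      push_cast
      ring
    have e2 : x * x * ((m * k : ℤ) : ZMod n) = ((x.val * x.val * (m * k) : ℤ) : ZMod n) := by simp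
    have e3 : y * y * ((n * k : ℤ) : ZMod m) = ((y.val * y.val * (n * k) : ℤ) : ZMod m) := by simp
    rw [e1, e2, e3, ZMod.stdAddChar_coe, ZMod.stdAddChar_coe, ZMod.stdAddChar_coe, ← Complex.exp_add]
    rw [Complex.exp_eq_exp_iff_exists_int]
    refine ⟨2 * x.val * y.val * k, ?_⟩
    push_cast
    field_simp
    ring
  refine ⟨fun k => ?_, fun k hk => ?_⟩
  · rw [← (crt_bij h).sum_comp, Fintype.sum_prod_type]
    simp only [hJ, key]
    have : ∀ x : ZMod n, ∀ y : ZMod m, (((J(n | m) * J(m | n)) *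
        (J((x.val : ℤ) | n) * J((y.val : ℤ) | m)) : ℤ) : ℂ) *
        (ZMod.stdAddChar (x * (k : ZMod n)) * ZMod.stdAddChar (y * (k : ZMod m))) =
        ((J(n | m) * J(m | n) : ℤ) : ℂ) * ((((J((x.val : ℤ) | n) : ℤ) : ℂ) *
          ZMod.stdAddChar (x * (k : ZMod n))) *
        (((J((y.val : ℤ) | m) : ℤ) : ℂ) * ZMod.stdAddChar (y * (k : ZMod m)))) := fun x y => by
      push_cast
      ring
    simp only [this, ← Finset.mul_sum, ← Finset.sum_mul, Fm.1 k, Fn.1 k]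
    rw [jacobiSym.mul_right]
    push_cast
    ring
  · rw [← (crt_bij h).sum_comp, Fintype.sum_prod_type]
    simp only [key2, ← Finset.mul_sum, ← Finset.sum_mul]
    have hk' : IsCoprime k ((m : ℤ) * n) := by simpa using hk
    have hmn : IsCoprime (m : ℤ) n := Nat.isCoprime_iff_coprime.2 h
    have hk1 : IsCoprime k (m : ℤ) := hk'.of_mul_right_left
    have hk2 : IsCoprime k (n : ℤ) := hk'.of_mul_right_right
    have c1 : IsCoprime ((n : ℤ) * k) m := hmn.symm.mul_left hk1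
    have c2 : IsCoprime ((m : ℤ) * k) n := hmn.mul_left hk2
    rw [Fm.2 _ c1, Fn.2 _ c2, jacobiSym.mul_left, jacobiSym.mul_left, jacobiSym.mul_right]
    push_cast
    ring

theorem GG_all : ∀ q : ℕ, Squarefree q → Odd q → ∀ _ : NeZero q, ∃ ε : ℂ, GG q ε := by
  intro q
  induction q using induction_on_primes with
  | zero => exact fun h => absurd h not_squarefree_zero
  | one => exact fun _ _ _ => ⟨1, GG_one⟩
  | prime_mul p a hp ih =>
    intro hs ho h0
    have : Fact p.Prime := ⟨hp⟩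
    have hp0 : NeZero p := ⟨hp.ne_zero⟩
    have ha0 : NeZero a := ⟨right_ne_zero_of_mul h0.ne⟩
    have h1 := Nat.odd_mul.1 ho
    have hp2 : p ≠ 2 := by
      rintro rfl
      exact absurd h1.1 (by decide)
    obtain ⟨ε₁, e₁⟩ := GG_prime p hp2
    obtain ⟨ε₂, e₂⟩ := ih hs.of_mul_right h1.2 ha0
    exact ⟨_, GG_mul (Nat.coprime_of_squarefree_mul hs) e₁ e₂⟩

/-- the finite Fourier transform of `(a/q)` for odd squarefree `q ≡ 1 mod 4` -/
theorem FT_allG (hTw : StTw) (q : ℕ) (hs : Squarefree q) (hq : q % 4 = 1) [h0 : NeZero q] :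
    FT q := by
  obtain ⟨ε, e1, e2⟩ := GG_all q hs (Nat.odd_iff.2 (by omega)) h0
  have h1 := e2 1 isCoprime_one_left
  have h2 := gs_eq hTw hq
  unfold gsd at h2
  have h3 : ε = (√(q : ℝ) : ℝ) := by
    rw [← h2]
    simpa [jacobiSym.one_left] using h1.symm
  intro k
  rw [e1 k, h3]

lemma chi_neg_three {q : ℕ} (hq : q % 4 = 3) (h : ℤ) : chi (-h) q = -chi h q := by
  unfold chi
  rw [jacobiSym.neg _ (Nat.odd_iff.2 (by omega)), ZMod.χ₄_nat_three_mod_four hq]
  push_cast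
  ring

lemma tsum_odd_zero {f : ℤ → ℝ} (hf : ∀ h, f (-h) = -f h) : ∑' h, f h = 0 := by
  have h1 : ∑' h, f h = ∑' h, f (-h) := ((Equiv.neg ℤ).tsum_eq f).symm
  simp only [hf, tsum_neg] at h1
  linarith

theorem pfPoisG (hTw : StTw) : StPoisG := by
  intro q hs hq T hT
  have hcase : q % 4 = 1 ∨ q % 4 = 3 := by
    have := Nat.odd_iff.1 hq
    omega
  rcases hcase with h4 | h4
  swap
  · rw [tsum_odd_zero (f := fun h : ℤ => Real.exp (-π * (h : ℝ) ^ 2 / T ^ 2) * chi h q),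
      tsum_odd_zero (f := fun j : ℤ => Real.exp (-π * (j : ℝ) ^ 2 * T ^ 2 / (q : ℝ) ^ 2) * chi j q),
      mul_zero]
    · intro h
      rw [chi_neg_three h4]
      push_cast
      rw [neg_sq]
      ring
    · intro h
      rw [chi_neg_three h4]
      push_cast
      rw [neg_sq]
      ring
  have hq0 : q ≠ 0 := hs.ne_zero
  have : NeZero q := ⟨hq0⟩
  have hqpos : (0 : ℝ) < q := by exact_mod_cast Nat.pos_of_ne_zero hq0
  have hF := FT_allG hTw q hs h4
  have h1 := (hTw q (fun a => ((J((a.val : ℤ) | q) : ℤ) : ℂ)) (1 / T ^ 2) (by positivity)).1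
  simp only [hF _] at h1
  have hJ : ∀ n : ℤ, J((((n : ZMod q).val : ℕ) : ℤ) | q) = J(n | q) := fun n => by
    apply jacobiSym.mod_left'
    rw [ZMod.val_intCast]
    exact Int.emod_emod_of_dvd _ dvd_rfl
  simp only [hJ] at h1
  have hsT : √(1 / T ^ 2) = 1 / T := by
    rw [Real.sqrt_div zero_le_one, Real.sqrt_one, Real.sqrt_sq hT.le]
  rw [hsT] at h1
  have hsq : (√(q : ℝ)) * √(q : ℝ) = q := Real.mul_self_sqrt hqpos.le
  have hsq0 : √(q : ℝ) ≠ 0 := (Real.sqrt_pos.2 hqpos).ne'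
  apply Complex.ofReal_injective
  rw [Complex.ofReal_tsum, Complex.ofReal_mul, Complex.ofReal_tsum]
  unfold chi
  calc _ = ∑' n : ℤ, ((J(n | q) : ℤ) : ℂ) * (rexp (-π * (n : ℝ) ^ 2 * (1 / T ^ 2)) : ℂ) := by
        refine tsum_congr fun n => ?_
        push_cast
        rw [mul_comm, mul_one_div]
    _ = _ := by
        rw [h1, ← tsum_mul_left, ← tsum_mul_left]
        refine tsum_congr fun k => ?_
        have e1 : -π * (k : ℝ) ^ 2 / ((q : ℝ) ^ 2 * (1 / T ^ 2)) = -π * (k : ℝ) ^ 2 * T ^ 2 / (q : ℝ) ^ 2 := by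
          field_simp
        rw [e1]
        have e2 : (1 / ((q : ℝ) * (1 / T)) : ℝ) * √(q : ℝ) = T / √(q : ℝ) := by
          field_simp
          rw [sq, hsq]
        have e3 : ((1 / ((q : ℝ) * (1 / T)) : ℝ) : ℂ) * (√(q : ℝ) : ℝ) = ((T / √(q : ℝ) : ℝ) : ℂ) := by
          rw [← Complex.ofReal_mul, e2]
        rw [← e3]
        push_cast
        ring


/-- The formula for fixed `x`. -/
lemma pair_pointG (hP : StPoisG) {g q : ℕ} (hg : g ≠ 0) (hs : Squarefree q)
    (hq : Odd q) {H x : ℝ} (hH : 0 < H) (hx : 0 < x) :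
    x ^ 15 * rexp (-x) * ∑' h : ℤ, rexp (-π * (h : ℝ) ^ 2 * x ^ 16 / H ^ 2) * chi h (g * g * q) =
      ∑' j : ℤ, ∑ d ∈ g.divisors, H * ((μ d : ℝ) / (d * √(q : ℝ))) * (if (d : ℤ) ∣ j then
        chi j q * (x ^ 7 * rexp (-x) *
          rexp (-π * (|(j : ℝ)| * H / ((d : ℝ) ^ 2 * q)) ^ 2 / x ^ 16)) else 0) := by
  have hq0 : q ≠ 0 := hs.ne_zero
  have hqpos : (0 : ℝ) < q := by exact_mod_cast Nat.pos_of_ne_zero hq0
  have hc : 0 < x ^ 16 / H ^ 2 := by positivity
  have e0 : ∀ h : ℤ, rexp (-π * (h : ℝ) ^ 2 * x ^ 16 / H ^ 2) * chi h (g * g * q) =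
      ∑ d ∈ g.divisors, (μ d : ℝ) * (if (d : ℤ) ∣ h then
        rexp (-π * (h : ℝ) ^ 2 * (x ^ 16 / H ^ 2)) * chi h q else 0) := fun h => by
    rw [chi_pair hg hq0, Finset.mul_sum]
    refine Finset.sum_congr rfl fun d _ => ?_
    rw [mul_div_assoc]
    split_ifs
    · ring
    · ring
  simp only [e0]
  rw [Summable.tsum_finsetSum fun d _ => (summable_chi hc q _).mul_left _, Finset.mul_sum]
  rw [Summable.tsum_finsetSum]
  · refine Finset.sum_congr rfl fun d hd => ?_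
    have hd0 : d ≠ 0 := (Nat.pos_of_mem_divisors hd).ne'
    have hdpos : (0 : ℝ) < d := by exact_mod_cast Nat.pos_of_ne_zero hd0
    rw [tsum_mul_left, tsum_multiples hd0, tsum_mul_left, tsum_multiples hd0]
    have hT : 0 < H / (d * x ^ 8) := by positivity
    have h1 := hP q hs hq _ hT
    have h2 : ∑' h : ℤ, rexp (-π * ((d * h : ℤ) : ℝ) ^ 2 * (x ^ 16 / H ^ 2)) * chi (d * h) q =
        chi d q * ∑' h : ℤ, rexp (-π * (h : ℝ) ^ 2 / (H / (d * x ^ 8)) ^ 2) * chi h q := by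
      rw [← tsum_mul_left]
      refine tsum_congr fun h => ?_
      rw [chi_mul_left]
      have : -π * ((d * h : ℤ) : ℝ) ^ 2 * (x ^ 16 / H ^ 2) = -π * (h : ℝ) ^ 2 / (H / (d * x ^ 8)) ^ 2 := by
        push_cast
        field_simp
      rw [this]
      ring
    rw [h2, h1, ← tsum_mul_left, ← tsum_mul_left, ← tsum_mul_left, ← tsum_mul_left, ← tsum_mul_left]
    refine tsum_congr fun j => ?_
    rw [chi_mul_left]
    have : -π * (|((d * j : ℤ) : ℝ)| * H / ((d : ℝ) ^ 2 * q)) ^ 2 / x ^ 16 =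
        -π * (j : ℝ) ^ 2 * (H / (d * x ^ 8)) ^ 2 / (q : ℝ) ^ 2 := by
      rw [div_pow, mul_pow, sq_abs]
      push_cast
      field_simp
    rw [this]
    field_simp
  · intro d hd
    have hdpos : (0 : ℝ) < d := by exact_mod_cast Nat.pos_of_mem_divisors hd
    have hc' : 0 < (H / ((d : ℝ) ^ 2 * q)) ^ 2 / x ^ 16 := by positivity
    refine Summable.mul_left _ ?_
    refine ((summable_chi hc' q (fun j => (d : ℤ) ∣ j)).mul_left (x ^ 7 * rexp (-x))).congr
      fun j => ?_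
    have : -π * (|(j : ℝ)| * H / ((d : ℝ) ^ 2 * q)) ^ 2 / x ^ 16 =
        -π * (j : ℝ) ^ 2 * ((H / ((d : ℝ) ^ 2 * q)) ^ 2 / x ^ 16) := by
      rw [div_pow, mul_pow, sq_abs, div_pow]
      ring
    rw [this]
    split_ifs
    · ring
    · ring

/-- Module D2, general form. -/
theorem pfPairG (hP : StPoisG) : StPairG := by
  intro n₁ n₂ hs1 hs2 ho1 ho2 H hH
  set g := n₁.gcd n₂ with hg
  have hn1 : n₁ ≠ 0 := hs1.ne_zero
  have hn2 : n₂ ≠ 0 := hs2.ne_zero
  have hg0 : g ≠ 0 := Nat.gcd_ne_zero_left hn1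
  obtain ⟨m₁, h1⟩ : g ∣ n₁ := Nat.gcd_dvd_left _ _
  obtain ⟨m₂, h2⟩ : g ∣ n₂ := Nat.gcd_dvd_right _ _
  have hm1 : n₁ / g = m₁ := by
    rw [h1]
    exact Nat.mul_div_cancel_left _ (Nat.pos_of_ne_zero hg0)
  have hm2 : n₂ / g = m₂ := by
    rw [h2]
    exact Nat.mul_div_cancel_left _ (Nat.pos_of_ne_zero hg0)
  have hco : m₁.Coprime m₂ := by
    rw [← hm1, ← hm2]
    exact Nat.coprime_div_gcd_div_gcd (Nat.pos_of_ne_zero hg0)
  have hq : Squarefree (m₁ * m₂) := by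
    rw [Nat.squarefree_mul hco]
    refine ⟨?_, ?_⟩
    · rw [h1] at hs1
      exact hs1.of_mul_right
    · rw [h2] at hs2
      exact hs2.of_mul_right
  have hqp : Odd (m₁ * m₂) := by
    refine Nat.odd_mul.2 ⟨?_, ?_⟩
    · rw [h1] at ho1
      exact (Nat.odd_mul.1 ho1).2
    · rw [h2] at ho2
      exact (Nat.odd_mul.1 ho2).2
  have hnn : n₁ * n₂ = g * g * (m₁ * m₂) := by
    conv_lhs => rw [h1, h2]
    ring
  rw [hm1, hm2]
  have hnc : ∀ h : ℤ, chi h (n₁ * n₂) = chi h (g * g * (m₁ * m₂)) := fun h => by rw [hnn]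
  simp only [hnc]
  generalize m₁ * m₂ = q at hq hqp
  clear_value g
  have hq0 : q ≠ 0 := hq.ne_zero
  have hqpos : (0 : ℝ) < q := by exact_mod_cast Nat.pos_of_ne_zero hq0
  set F : ℤ → ℝ → ℝ := fun j x => ∑ d ∈ g.divisors, H * ((μ d : ℝ) / (d * √(q : ℝ))) *
    (if (d : ℤ) ∣ j then chi j q * (x ^ 7 * rexp (-x) *
      rexp (-π * (|(j : ℝ)| * H / ((d : ℝ) ^ 2 * q)) ^ 2 / x ^ 16)) else 0) with hF
  have hint1 : ∀ (j : ℤ) (d : ℕ), IntegrableOn (fun x => H * ((μ d : ℝ) / (d * √(q : ℝ))) *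
    (if (d : ℤ) ∣ j then chi j q * (x ^ 7 * rexp (-x) *
      rexp (-π * (|(j : ℝ)| * H / ((d : ℝ) ^ 2 * q)) ^ 2 / x ^ 16)) else 0)) (Ioi 0) := fun j d => by
    refine Integrable.const_mul ?_ _
    split_ifs
    · exact (gk_int _).const_mul _
    · exact integrable_zero _ _ _
  have hval1 : ∀ (j : ℤ) (d : ℕ), ∫ x in Ioi (0 : ℝ), H * ((μ d : ℝ) / (d * √(q : ℝ))) *
    (if (d : ℤ) ∣ j then chi j q * (x ^ 7 * rexp (-x) *
      rexp (-π * (|(j : ℝ)| * H / ((d : ℝ) ^ 2 * q)) ^ 2 / x ^ 16)) else 0) =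
      H * ((μ d : ℝ) / (d * √(q : ℝ))) *
      (if (d : ℤ) ∣ j then chi j q * Gk (|(j : ℝ)| * H / ((d : ℝ) ^ 2 * q)) else 0) := fun j d => by
    rw [integral_const_mul]
    congr 1
    split_ifs
    · rw [integral_const_mul]
      rfl
    · simp
  have hint : ∀ j, IntegrableOn (F j) (Ioi 0) := fun j =>
    integrable_finsetSum _ fun d _ => hint1 j d
  have hval : ∀ j, ∫ x in Ioi (0 : ℝ), F j x = ∑ d ∈ g.divisors, H * ((μ d : ℝ) / (d * √(q : ℝ))) *
      (if (d : ℤ) ∣ j then chi j q * Gk (|(j : ℝ)| * H / ((d : ℝ) ^ 2 * q)) else 0) := fun j => by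
    rw [hF, integral_finsetSum _ fun d _ => hint1 j d]
    exact Finset.sum_congr rfl fun d _ => hval1 j d
  have hsumd : ∀ d ∈ g.divisors, Summable fun j : ℤ => |H * ((μ d : ℝ) / (d * √(q : ℝ)))| *
      Gk (|(j : ℝ)| * H / ((d : ℝ) ^ 2 * q)) := fun d hd => by
    have hdpos : (0 : ℝ) < d := by exact_mod_cast Nat.pos_of_mem_divisors hd
    refine ((summable_Gk (c := H / ((d : ℝ) ^ 2 * q)) (by positivity)).mul_left
      |H * ((μ d : ℝ) / (d * √(q : ℝ)))|).congr fun j => ?_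
    rw [mul_div_assoc]
  have hnorm : Summable fun j => ∫ x in Ioi (0 : ℝ), ‖F j x‖ := by
    refine Summable.of_norm_bounded (summable_sum hsumd) fun j => ?_
    rw [Real.norm_of_nonneg (integral_nonneg fun _ => norm_nonneg _)]
    have hG : ∀ d ∈ g.divisors, IntegrableOn (fun x : ℝ => |H * ((μ d : ℝ) / (d * √(q : ℝ)))| *
        (x ^ 7 * rexp (-x) * rexp (-π * (|(j : ℝ)| * H / ((d : ℝ) ^ 2 * q)) ^ 2 / x ^ 16)))
        (Ioi 0) := fun d _ => (gk_int _).const_mul _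
    calc ∫ x in Ioi (0 : ℝ), ‖F j x‖ ≤ ∫ x in Ioi (0 : ℝ), ∑ d ∈ g.divisors,
          |H * ((μ d : ℝ) / (d * √(q : ℝ)))| * (x ^ 7 * rexp (-x) *
            rexp (-π * (|(j : ℝ)| * H / ((d : ℝ) ^ 2 * q)) ^ 2 / x ^ 16)) := by
          refine setIntegral_mono_on (hint j).norm (integrable_finsetSum _ hG)
            measurableSet_Ioi fun x hx => ?_
          have hx' : (0 : ℝ) < x := hx
          refine (norm_sum_le _ _).trans (Finset.sum_le_sum fun d _ => ?_)
          rw [norm_mul, Real.norm_eq_abs]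
          refine mul_le_mul_of_nonneg_left ?_ (abs_nonneg _)
          split_ifs
          · rw [norm_mul, Real.norm_eq_abs, Real.norm_of_nonneg (by positivity)]
            exact mul_le_of_le_one_left (by positivity) (chi_bound _ _)
          · rw [norm_zero]
            positivity
      _ = _ := by
          rw [integral_finsetSum _ hG]
          exact Finset.sum_congr rfl fun d _ => by rw [integral_const_mul]; rfl
  have hmain := integral_tsum_of_summable_integral_norm hint hnorm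
  rw [setIntegral_congr_fun measurableSet_Ioi (g := fun x => ∑' j, F j x)
    (fun x hx => pair_pointG hP hg0 hq hqp hH hx), ← hmain]
  simp only [hval]
  have hsum2 : ∀ d ∈ g.divisors, Summable fun j : ℤ => H * ((μ d : ℝ) / (d * √(q : ℝ))) *
      (if (d : ℤ) ∣ j then chi j q * Gk (|(j : ℝ)| * H / ((d : ℝ) ^ 2 * q)) else 0) := fun d hd => by
    refine Summable.of_norm_bounded (hsumd d hd) fun j => ?_
    rw [norm_mul, Real.norm_eq_abs]
    refine mul_le_mul_of_nonneg_left ?_ (abs_nonneg _)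
    split_ifs
    · rw [norm_mul, Real.norm_eq_abs, Real.norm_of_nonneg (gk_nonneg _)]
      exact mul_le_of_le_one_left (gk_nonneg _) (chi_bound _ _)
    · rw [norm_zero]
      exact gk_nonneg _
  rw [Summable.tsum_finsetSum hsum2, Finset.mul_sum]
  refine Finset.sum_congr rfl fun d _ => ?_
  rw [tsum_mul_left, mul_assoc]

end P004
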