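import Vale.Agent.P004.D2
import Vale.Agent.P004.H1a

/-!
# P004/H3: `∑_{j ≥ 1} Gk (j c) ≪ 1 / c`, and divisor sums with exponential weights
-/

open Real MeasureTheory Set
open scoped ENNReal

namespace P004.H3

/-- `Gk y ≤ B / (1 + y)²` -/
theorem Gk_le_inv_sq (hK : StKer) : ∃ B : ℝ, 0 < B ∧ ∀ y : ℝ, 0 ≤ y → Gk y ≤ B / (1 + y) ^ 2 := by
  refine ⟨4 * (5040 + Real.Gamma 24 / π), ?_, fun y hy => ?_⟩
  · have : 0 < Real.Gamma 24 := Real.Gamma_pos_of_pos (by norm_num)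
    positivity
  have hG : 0 < Real.Gamma 24 / π := by
    have : 0 < Real.Gamma 24 := Real.Gamma_pos_of_pos (by norm_num)
    positivity
  rw [le_div_iff₀ (by positivity)]
  rcases le_total y 1 with h | h
  · have h1 := hK.le y
    have h0 := gk_nonneg y
    have h2 : (1 + y) ^ 2 ≤ 4 := by nlinarith
    calc Gk y * (1 + y) ^ 2 ≤ 5040 * 4 := by gcongr
      _ ≤ _ := by nlinarith
  · have h1 := gk_le (y := y) (by linarith)
    have h0 := gk_nonneg y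
    have h2 : (1 + y) ^ 2 ≤ 4 * y ^ 2 := by nlinarith
    calc Gk y * (1 + y) ^ 2 ≤ Real.Gamma 24 / (π * y ^ 2) * (4 * y ^ 2) := by gcongr
      _ = 4 * (Real.Gamma 24 / π) := by
        have : y ≠ 0 := by linarith
        field_simp
      _ ≤ _ := by linarith

theorem sum_inv_sq_le {c : ℝ} (hc : 0 < c) (n : ℕ) :
    ∑ j ∈ Finset.range n, 1 / (1 + ((j + 1 : ℕ) : ℝ) * c) ^ 2 ≤ 1 / c := by
  have h : ∀ n : ℕ, ∑ j ∈ Finset.range n, 1 / (1 + ((j + 1 : ℕ) : ℝ) * c) ^ 2 ≤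
      1 / c * (1 - 1 / (1 + (n : ℝ) * c)) := by
    intro n
    induction n with
    | zero => simp
    | succ n ih =>
      rw [Finset.sum_range_succ]
      have h1 : 1 / (1 + ((n + 1 : ℕ) : ℝ) * c) ^ 2 ≤
          1 / c * (1 / (1 + (n : ℝ) * c) - 1 / (1 + ((n + 1 : ℕ) : ℝ) * c)) := by
        push_cast
        have ha : 0 < 1 + (n : ℝ) * c := by positivity
        have hb : 0 < 1 + ((n : ℝ) + 1) * c := by positivity
        have e : 1 / c * (1 / (1 + (n : ℝ) * c) - 1 / (1 + ((n : ℝ) + 1) * c)) =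
            1 / ((1 + (n : ℝ) * c) * (1 + ((n : ℝ) + 1) * c)) := by
          field_simp
          ring
        rw [e, sq]
        apply one_div_le_one_div_of_le (by positivity)
        gcongr
        linarith
      calc _ ≤ 1 / c * (1 - 1 / (1 + (n : ℝ) * c)) +
            1 / c * (1 / (1 + (n : ℝ) * c) - 1 / (1 + ((n + 1 : ℕ) : ℝ) * c)) :=
            add_le_add ih h1
        _ = _ := by ring
  refine (h n).trans ?_
  have : 0 ≤ 1 / (1 + (n : ℝ) * c) := by positivity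
  have h2 : 0 < 1 / c := by positivity
  nlinarith

/-- `∑_{j ≥ 1} Gk (j c) ≤ C / c` -/
theorem sum_Gk (hK : StKer) : ∃ C : ℝ, 0 < C ∧ ∀ c : ℝ, 0 < c →
    (Summable fun j : ℕ => Gk (((j + 1 : ℕ) : ℝ) * c)) ∧
      ∑' j : ℕ, Gk (((j + 1 : ℕ) : ℝ) * c) ≤ C / c := by
  obtain ⟨B, hB, h⟩ := Gk_le_inv_sq hK
  refine ⟨B, hB, fun c hc => ?_⟩
  have hpart : ∀ n : ℕ, ∑ j ∈ Finset.range n, Gk (((j + 1 : ℕ) : ℝ) * c) ≤ B / c := by
    intro n
    calc ∑ j ∈ Finset.range n, Gk (((j + 1 : ℕ) : ℝ) * c)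
        ≤ ∑ j ∈ Finset.range n, B * (1 / (1 + ((j + 1 : ℕ) : ℝ) * c) ^ 2) := by
          refine Finset.sum_le_sum fun j _ => ?_
          rw [mul_one_div]
          exact h _ (by positivity)
      _ = B * ∑ j ∈ Finset.range n, 1 / (1 + ((j + 1 : ℕ) : ℝ) * c) ^ 2 := by
          rw [Finset.mul_sum]
      _ ≤ B * (1 / c) := by
          gcongr
          exact sum_inv_sq_le hc n
      _ = B / c := by ring
  have hs : Summable fun j : ℕ => Gk (((j + 1 : ℕ) : ℝ) * c) :=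
    summable_of_sum_range_le (fun j => gk_nonneg _) hpart
  exact ⟨hs, Real.tsum_le_of_sum_range_le (fun j => gk_nonneg _) hpart⟩

/-- `e^{-y} ≤ 2 y^{-1-θ}` for `0 ≤ θ ≤ 1` -/
theorem exp_neg_le_rpow {y θ : ℝ} (hy : 0 < y) (hθ : 0 ≤ θ) (hθ1 : θ ≤ 1) :
    Real.exp (-y) ≤ 2 * y ^ (-1 - θ) := by
  have h1 : y ^ (1 + θ) ≤ 2 * Real.exp y := by
    rcases le_total y 1 with h | h
    · have h2 : y ^ (1 + θ) ≤ 1 := Real.rpow_le_one hy.le h (by linarith)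
      have h3 := Real.add_one_le_exp y
      linarith
    · have h2 : y ^ (1 + θ) ≤ y ^ (2 : ℝ) := Real.rpow_le_rpow_of_exponent_le h (by linarith)
      have h3 : y ^ 2 / 2 ≤ Real.exp y := by
        have := Real.pow_div_factorial_le_exp y hy.le 2
        norm_num [Nat.factorial] at this
        linarith
      rw [Real.rpow_two] at h2
      linarith
  have e : -1 - θ = -(1 + θ) := by ring
  rw [e, Real.rpow_neg hy.le, Real.exp_neg, ← div_eq_mul_inv, le_div_iff₀ (by positivity),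
    inv_mul_le_iff₀ (Real.exp_pos _)]
  linarith

/-- `∑ d(n)^K e^{-π n U} ≪ (1/θ)^A U^{-1-θ}` -/
theorem sum_dv_exp (hD : StDiv) (K : ℕ) : ∃ C : ℝ, 0 < C ∧ ∃ A : ℕ, ∀ θ U : ℝ, 0 < θ → θ ≤ 1 →
    0 < U →
    (Summable fun n : ℕ => dv n ^ K * Real.exp (-π * n * U)) ∧
    ∑' n : ℕ, dv (n + 1) ^ K * Real.exp (-π * ((n + 1 : ℕ) : ℝ) * U) ≤
      C * (1 / θ) ^ A * U ^ (-1 - θ) := by
  obtain ⟨C, hC, A, h⟩ := hD.1 K
  refine ⟨2 * C, by positivity, A, fun θ U hθ hθ1 hU => ?_⟩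
  have hdv : ∀ n : ℕ, 0 ≤ dv n := fun n => by unfold dv; positivity
  have hle := h θ hθ hθ1
  have hfin : ∑' n : ℕ, ENNReal.ofReal (dv n ^ K * (n : ℝ) ^ (-1 - θ)) ≠ ⊤ :=
    ne_top_of_le_ne_top ENNReal.ofReal_ne_top hle
  have hnn : ∀ n : ℕ, 0 ≤ dv n ^ K * (n : ℝ) ^ (-1 - θ) := fun n => by
    have := hdv n
    positivity
  have hs : Summable fun n : ℕ => dv n ^ K * (n : ℝ) ^ (-1 - θ) := by
    have := ENNReal.summable_toReal hfin
    refine this.congr fun n => ?_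
    rw [ENNReal.toReal_ofReal (hnn n)]
  have hts : ∑' n : ℕ, dv n ^ K * (n : ℝ) ^ (-1 - θ) ≤ C * (1 / θ) ^ A := by
    rw [← ENNReal.ofReal_tsum_of_nonneg hnn hs] at hle
    exact (ENNReal.ofReal_le_ofReal_iff (by positivity)).1 hle
  have hpt : ∀ n : ℕ, dv (n + 1) ^ K * Real.exp (-π * ((n + 1 : ℕ) : ℝ) * U) ≤
      2 * U ^ (-1 - θ) * (dv (n + 1) ^ K * ((n + 1 : ℕ) : ℝ) ^ (-1 - θ)) := by
    intro n
    have hn : (0 : ℝ) < ((n + 1 : ℕ) : ℝ) := by positivity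
    have h1 : Real.exp (-π * ((n + 1 : ℕ) : ℝ) * U) ≤ 2 * (((n + 1 : ℕ) : ℝ) * U) ^ (-1 - θ) := by
      refine le_trans ?_ (exp_neg_le_rpow (y := ((n + 1 : ℕ) : ℝ) * U) (by positivity) hθ.le hθ1)
      rw [Real.exp_le_exp]
      have := Real.pi_gt_three
      have h2 : 0 < ((n + 1 : ℕ) : ℝ) * U := by positivity
      nlinarith
    rw [Real.mul_rpow hn.le hU.le] at h1
    have h3 : 0 ≤ dv (n + 1) ^ K := by have := hdv (n + 1); positivity
    calc dv (n + 1) ^ K * Real.exp (-π * ((n + 1 : ℕ) : ℝ) * U)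
        ≤ dv (n + 1) ^ K * (2 * (((n + 1 : ℕ) : ℝ) ^ (-1 - θ) * U ^ (-1 - θ))) := by gcongr
      _ = _ := by ring
  have hs1 : Summable fun n : ℕ => dv (n + 1) ^ K * ((n + 1 : ℕ) : ℝ) ^ (-1 - θ) :=
    (summable_nat_add_iff 1).2 hs
  have hs2 : Summable fun n : ℕ => dv (n + 1) ^ K * Real.exp (-π * ((n + 1 : ℕ) : ℝ) * U) := by
    refine Summable.of_nonneg_of_le (fun n => ?_) hpt (hs1.mul_left _)
    have := hdv (n + 1)
    positivity
  refine ⟨(summable_nat_add_iff 1).1 hs2, ?_⟩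
  calc ∑' n : ℕ, dv (n + 1) ^ K * Real.exp (-π * ((n + 1 : ℕ) : ℝ) * U)
      ≤ ∑' n : ℕ, 2 * U ^ (-1 - θ) * (dv (n + 1) ^ K * ((n + 1 : ℕ) : ℝ) ^ (-1 - θ)) :=
        Summable.tsum_le_tsum hpt hs2 (hs1.mul_left _)
    _ = 2 * U ^ (-1 - θ) * ∑' n : ℕ, dv (n + 1) ^ K * ((n + 1 : ℕ) : ℝ) ^ (-1 - θ) := by
        rw [tsum_mul_left]
    _ ≤ 2 * U ^ (-1 - θ) * ∑' n : ℕ, dv n ^ K * (n : ℝ) ^ (-1 - θ) := by
        refine mul_le_mul_of_nonneg_left ?_ (by positivity)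
        rw [hs.tsum_eq_zero_add]
        have := hnn 0
        linarith
    _ ≤ 2 * U ^ (-1 - θ) * (C * (1 / θ) ^ A) := by gcongr
    _ = _ := by ring

end P004.H3
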