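import Vale.Agent.P004.H503.Iface3
import Vale.Agent.P004.H3.Poi
import Vale.Agent.P004.H3.SumGk
import Vale.Agent.P004.H3.FnSer

/-!
# P004/H3: module T0, the mean value of one character
-/

open Real MeasureTheory Set
open scoped ENNReal ArithmeticFunction.Moebius

namespace P004.H3

/-- decomposition of a good number -/
theorem good_decomp {ν : ℕ} (h : Good ν) : ∃ g q : ℕ, g ≠ 0 ∧ Squarefree q ∧ g * g * q = ν ∧
    (∀ p : ℕ, p.Prime → p ∣ q → p % 4 = 1) := by
  obtain ⟨a, b, hab, hsq⟩ := Nat.sq_mul_squarefree ν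
  -- `b ^ 2 * a = ν`
  have hν := h.1
  have hb0 : b ≠ 0 := by
    rintro rfl
    apply hν
    rw [← hab]; ring
  refine ⟨b, a, hb0, hsq, by rw [← hab]; ring, fun p hp hd => ?_⟩
  have hpν : p ∣ ν := by rw [← hab]; exact Dvd.dvd.mul_left hd _
  have h1 := h.2 p hp hpν
  have hodd : p % 2 = 1 := by
    rcases hp.eq_two_or_odd with h2 | h2
    · exact absurd h2 h1.1
    · exact h2
  by_contra h4
  have h3 : p % 4 = 3 := by omega
  have he := h1.2 h3
  rw [← hab, Nat.factorization_mul (pow_ne_zero 2 hb0) hsq.ne_zero, Finsupp.add_apply,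
    Nat.factorization_pow, Finsupp.smul_apply, smul_eq_mul] at he
  have ha1 : a.factorization p = 1 := by
    have h5 := hsq.natFactorization_le_one p
    have h6 : 0 < a.factorization p := hp.factorization_pos_of_dvd hsq.ne_zero hd
    omega
  rw [ha1] at he
  have : Even (2 * b.factorization p) := ⟨b.factorization p, by ring⟩
  have h7 := (Nat.even_add.1 he).1 this
  exact absurd h7 (by decide)

theorem tsum_dvd {d : ℕ} (hd : 0 < d) (c : ℝ) :
    ∑' j : ℕ, (if d ∣ (j + 1) then Gk (((j + 1 : ℕ) : ℝ) * c / d) else 0) =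
      ∑' i : ℕ, Gk (((i + 1 : ℕ) : ℝ) * c) := by
  have hdR : (d : ℝ) ≠ 0 := by exact_mod_cast hd.ne'
  have hinj : Function.Injective fun i : ℕ => d * (i + 1) - 1 := by
    intro a b hab
    simp only at hab
    have h1 : 0 < d * (a + 1) := by positivity
    have h2 : 0 < d * (b + 1) := by positivity
    have h3 : d * (a + 1) = d * (b + 1) := by omega
    have := Nat.eq_of_mul_eq_mul_left hd h3
    omega
  have h := hinj.tsum_eq (f := fun j : ℕ =>
    (if d ∣ (j + 1) then Gk (((j + 1 : ℕ) : ℝ) * c / d) else 0)) ?_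
  · rw [← h]
    refine tsum_congr fun i => ?_
    have h1 : 0 < d * (i + 1) := by positivity
    have e : d * (i + 1) - 1 + 1 = d * (i + 1) := by omega
    simp only [e]
    rw [if_pos (dvd_mul_right d (i + 1))]
    congr 1
    push_cast
    field_simp
  · intro j hj
    rw [Function.mem_support] at hj
    by_cases hdj : d ∣ j + 1
    · obtain ⟨k, hk⟩ := hdj
      have hk0 : k ≠ 0 := by
        rintro rfl
        omega
      refine ⟨k - 1, ?_⟩
      simp only
      rw [Nat.sub_add_cancel (Nat.one_le_iff_ne_zero.2 hk0), ← hk]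
      omega
    · simp only [if_neg hdj] at hj
      exact absurd rfl hj

theorem summable_dvd (hK : StKer) {d : ℕ} (hd : 0 < d) {c : ℝ} (hc : 0 < c) :
    Summable fun j : ℕ => (if d ∣ (j + 1) then Gk (((j + 1 : ℕ) : ℝ) * c / d) else 0) := by
  obtain ⟨C, hC, h⟩ := sum_Gk hK
  have hdR : (0 : ℝ) < d := by exact_mod_cast hd
  refine Summable.of_nonneg_of_le (fun j => ?_) (fun j => ?_) (h (c / d) (by positivity)).1
  · split_ifs
    · exact gk_nonneg _
    · exact le_rfl
  · split_ifs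
    · apply le_of_eq
      congr 1
      ring
    · exact gk_nonneg _

/-- the error term for `n = g² q` -/
theorem off_le (hP : StPois) (hK : StKer) : ∃ C : ℝ, 0 < C ∧ ∀ (g q : ℕ) (H : ℝ), g ≠ 0 →
    Squarefree q → (∀ p : ℕ, p.Prime → p ∣ q → p % 4 = 1) → 0 < H →
    |Off H (g * g * q)| ≤ C * (√(q : ℝ) * dv g) := by
  obtain ⟨C, hC, h⟩ := sum_Gk hK
  refine ⟨2 * C, by positivity, fun g q H hg hq hqp hH => ?_⟩
  have hq0 : (0 : ℝ) < q := by exact_mod_cast Nat.pos_of_ne_zero hq.ne_zero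
  have hsq : 0 < √(q : ℝ) := Real.sqrt_pos.2 hq0
  rw [off_eq hP hg hq hqp hH]
  have hsumm : ∀ d ∈ g.divisors, Summable fun j : ℕ => (μ d : ℝ) / (d * √(q : ℝ)) *
      (if d ∣ (j + 1) then chi ((j + 1 : ℕ) : ℤ) q *
        Gk (((j + 1 : ℕ) : ℝ) * H / ((d : ℝ) ^ 2 * q)) else 0) := by
    intro d hd
    have hd0 : 0 < d := Nat.pos_of_mem_divisors hd
    have hdR : (0 : ℝ) < d := by exact_mod_cast hd0
    refine Summable.mul_left _ ?_
    refine Summable.of_norm_bounded (summable_dvd hK hd0 (c := H / (d * q)) (by positivity))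
      fun j => ?_
    split_ifs
    · rw [norm_mul, Real.norm_eq_abs, Real.norm_of_nonneg (gk_nonneg _)]
      refine (mul_le_of_le_one_left (gk_nonneg _) (abs_chi_le _ _)).trans (le_of_eq ?_)
      congr 1
      field_simp
    · simp
  rw [Summable.tsum_finsetSum hsumm, abs_mul, abs_of_pos (show 0 < 2 * H by positivity)]
  have hone : ∀ d ∈ g.divisors, |∑' j : ℕ, (μ d : ℝ) / (d * √(q : ℝ)) *
      (if d ∣ (j + 1) then chi ((j + 1 : ℕ) : ℤ) q *
        Gk (((j + 1 : ℕ) : ℝ) * H / ((d : ℝ) ^ 2 * q)) else 0)| ≤ C * √(q : ℝ) / H := by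
    intro d hd
    have hd0 : 0 < d := Nat.pos_of_mem_divisors hd
    have hdR : (0 : ℝ) < d := by exact_mod_cast hd0
    rw [tsum_mul_left, abs_mul]
    have h1 : |(μ d : ℝ) / (d * √(q : ℝ))| ≤ 1 / (d * √(q : ℝ)) := by
      rw [abs_div, abs_of_pos (show 0 < (d : ℝ) * √(q : ℝ) by positivity)]
      gcongr
      exact H1.abs_moebius_le d
    have h2 : |∑' j : ℕ, (if d ∣ (j + 1) then chi ((j + 1 : ℕ) : ℤ) q *
        Gk (((j + 1 : ℕ) : ℝ) * H / ((d : ℝ) ^ 2 * q)) else 0)| ≤ C / (H / (d * q)) := by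
      have hs := summable_dvd hK hd0 (c := H / (d * q)) (by positivity)
      have h3 : ‖∑' j : ℕ, (if d ∣ (j + 1) then chi ((j + 1 : ℕ) : ℤ) q *
          Gk (((j + 1 : ℕ) : ℝ) * H / ((d : ℝ) ^ 2 * q)) else 0)‖ ≤
          ∑' j : ℕ, (if d ∣ (j + 1) then Gk (((j + 1 : ℕ) : ℝ) * (H / (d * q)) / d) else 0) := by
        refine tsum_of_norm_bounded hs.hasSum fun j => ?_
        split_ifs
        · rw [norm_mul, Real.norm_eq_abs, Real.norm_of_nonneg (gk_nonneg _)]
          refine (mul_le_of_le_one_left (gk_nonneg _) (abs_chi_le _ _)).trans (le_of_eq ?_)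
          congr 1
          field_simp
        · simp
      rw [Real.norm_eq_abs, tsum_dvd hd0] at h3
      exact h3.trans (h _ (by positivity)).2
    calc _ ≤ 1 / (d * √(q : ℝ)) * (C / (H / (d * q))) :=
          mul_le_mul h1 h2 (abs_nonneg _) (by positivity)
      _ = C * (q / √(q : ℝ)) / H := by field_simp
      _ = C * √(q : ℝ) / H := by rw [Real.div_sqrt]
  calc 2 * H * |∑ d ∈ g.divisors, ∑' j : ℕ, (μ d : ℝ) / (d * √(q : ℝ)) *
      (if d ∣ (j + 1) then chi ((j + 1 : ℕ) : ℤ) q *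
        Gk (((j + 1 : ℕ) : ℝ) * H / ((d : ℝ) ^ 2 * q)) else 0)|
      ≤ 2 * H * ∑ d ∈ g.divisors, C * √(q : ℝ) / H := by
        gcongr
        exact (Finset.abs_sum_le_sum_abs _ _).trans (Finset.sum_le_sum hone)
    _ = 2 * C * (√(q : ℝ) * dv g) := by
        rw [Finset.sum_const, nsmul_eq_mul]
        unfold dv
        field_simp

/-- Module T0. -/
theorem pfTw0_of (hP : StPois) (hK : StKer) : StTw0 := by
  obtain ⟨C, hC, h⟩ := off_le hP hK
  refine ⟨max 1 C, le_max_left _ _, fun H ν hH hν => ?_⟩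
  obtain ⟨g, q, hg, hq, hgq, hqp⟩ := good_decomp hν
  have hνR : (0 : ℝ) < ν := by exact_mod_cast Nat.pos_of_ne_zero hν.1
  have h1 := h g q H hg hq hqp (by linarith)
  rw [hgq] at h1
  have hEh : Eh H ν = Off H ν := rfl
  rw [hEh]
  refine h1.trans ?_
  have hg1 : (1 : ℝ) ≤ g := by exact_mod_cast Nat.one_le_iff_ne_zero.2 hg
  have h2 : √(q : ℝ) ≤ √(ν : ℝ) := by
    apply Real.sqrt_le_sqrt
    rw [← hgq]
    push_cast
    have hq0 : (0 : ℝ) ≤ q := by positivity
    nlinarith [mul_le_mul hg1 hg1 (by norm_num) (by linarith)]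
  have h3 : dv g ≤ dv ν := dv_le_of_dvd hν.1 ⟨g * q, by rw [← hgq]; ring⟩
  have h4 := dv_nonneg g
  have h5 := dv_nonneg ν
  calc C * (√(q : ℝ) * dv g) ≤ C * (√(ν : ℝ) * dv ν) := by gcongr
    _ ≤ max 1 C * (√(ν : ℝ) * dv ν) := by
        gcongr
        exact le_max_right _ _

end P004.H3
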