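import Vale.Agent.P004.H3.FnSer
import Vale.Agent.P004.H3.SumGk

/-!
# P004/H3: module T1, the twisted first moment
-/

open Real MeasureTheory Set
open scoped ENNReal

namespace P004.H3

theorem chi_mul (h : ℤ) {m n : ℕ} (hm : m ≠ 0) (hn : n ≠ 0) :
    chi h (m * n) = chi h m * chi h n := by
  unfold chi
  rw [jacobiSym.mul_right' h hm hn]
  push_cast
  ring

/-- exchange of the sums over `h` and over `n` -/
theorem exchange (hC : StCoef) {f : ℝ → ℝ} {U H : ℝ} (hU : 0 < U) (hH : 0 < H)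
    (hfm : Measurable f) (hf1 : ∀ u, |f u| ≤ 1) (hf0 : ∀ u, u < U → f u = 0) {ν : ℕ} (hν : ν ≠ 0) :
    ∑' h : ℤ, H1.ah H h * chi h ν * Fn f h =
      ∑' n : ℕ, bet f n * ∑' h : ℤ, H1.ah H h * chi h (ν * n) := by
  have hb0 : bet f 0 = 0 := by unfold bet; rw [hC.zero]; simp
  have hs1 : Summable fun p : ℤ × ℕ => (H1.ah H p.1 * chi p.1 ν) * (bet f p.2 * chi p.1 p.2) := by
    have h1 : Summable fun p : ℤ × ℕ => H1.ah H p.1 * |bet f p.2| :=
      (H1.summable_ah hH).mul_of_nonneg (summable_bet hC hU hf1 hf0)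
        (fun h => H1.ah_nonneg H h) (fun n => abs_nonneg _)
    refine Summable.of_norm_bounded h1 fun p => ?_
    rw [norm_mul, norm_mul, norm_mul, Real.norm_of_nonneg (H1.ah_nonneg _ _), Real.norm_eq_abs,
      Real.norm_eq_abs, Real.norm_eq_abs]
    have h2 := abs_chi_le p.1 ν
    have h3 := abs_chi_le p.1 p.2
    have h4 := H1.ah_nonneg H p.1
    calc H1.ah H p.1 * |chi p.1 ν| * (|bet f p.2| * |chi p.1 p.2|)
        ≤ H1.ah H p.1 * 1 * (|bet f p.2| * 1) := by gcongr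
      _ = _ := by ring
  calc ∑' h : ℤ, H1.ah H h * chi h ν * Fn f h
      = ∑' h : ℤ, ∑' n : ℕ, (H1.ah H h * chi h ν) * (bet f n * chi h n) := by
        refine tsum_congr fun h => ?_
        rw [Fn_eq hC hU hfm hf1 hf0, tsum_mul_left]
    _ = ∑' n : ℕ, ∑' h : ℤ, (H1.ah H h * chi h ν) * (bet f n * chi h n) := by
        exact (Summable.tsum_comm (f := fun (h : ℤ) (n : ℕ) =>
          (H1.ah H h * chi h ν) * (bet f n * chi h n)) hs1).symm
    _ = _ := by
        refine tsum_congr fun n => ?_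
        rcases Nat.eq_zero_or_pos n with rfl | hn
        · rw [hb0]; simp
        rw [← tsum_mul_left]
        refine tsum_congr fun h => ?_
        rw [chi_mul h hν hn.ne']
        ring

/-- Module T1. -/
theorem pfTw1_of (hC : StCoef) (hD : StDiv) (hT0 : StTw0) : StTw1 := by
  obtain ⟨C0, hC0, h0⟩ := hT0
  obtain ⟨C1, hC1, A, hA⟩ := sum_dv_exp hD 2
  have hdvnn := dv_nonneg
  refine ⟨max 1 (2 * C0 * C1 * Real.exp 1), le_max_left _ _, A + 1, ?_⟩
  intro L H U ν f hL hH hUL hU1 hν hfm hf1 hf0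
  have hU : 0 < U := (Real.exp_pos _).trans_le hUL
  have hH0 : 0 < H := by linarith
  have hb0 : bet f 0 = 0 := by unfold bet; rw [hC.zero]; simp
  have hνR : (0 : ℝ) < ν := by exact_mod_cast Nat.pos_of_ne_zero hν.1
  rw [exchange hC hU hH0 hfm hf1 hf0 hν.1]
  -- the bound for one `n`
  have hone : ∀ n : ℕ, |bet f n * Eh H (ν * n)| ≤
      2 * C0 * (√(ν : ℝ) * dv ν) * (dv n ^ 2 * Real.exp (-π * n * U)) := by
    intro n
    by_cases hn : ca n = 0
    · have : bet f n = 0 := by unfold bet; rw [hn]; simp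
      rw [this, zero_mul, abs_zero]
      have := hdvnn ν
      have := hdvnn n
      positivity
    have hg := good_of_ca_ne_zero hC hn
    have h1 := h0 H (ν * n) hH (good_mul hν hg)
    have h2 := abs_bet_le hC hU hf1 hf0 n
    have h3 : √(((ν * n : ℕ)) : ℝ) = √(ν : ℝ) * √(n : ℝ) := by
      push_cast
      rw [Real.sqrt_mul hνR.le]
    have h4 := dv_mul_le ν n
    have := hdvnn ν
    have := hdvnn n
    rw [abs_mul]
    calc |bet f n| * |Eh H (ν * n)| ≤ |bet f n| * (C0 * (√(((ν * n : ℕ)) : ℝ) * dv (ν * n))) := by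
          gcongr
      _ ≤ |bet f n| * (C0 * ((√(ν : ℝ) * √(n : ℝ)) * (dv ν * dv n))) := by
          rw [h3]
          gcongr
      _ = C0 * (√(ν : ℝ) * dv ν) * dv n * (√(n : ℝ) * |bet f n|) := by ring
      _ ≤ C0 * (√(ν : ℝ) * dv ν) * dv n * (2 * (dv n * Real.exp (-π * n * U))) := by gcongr
      _ = _ := by ring
  have hsd := summable_dv_pow 2 hU
  have hsE : Summable fun n : ℕ => bet f n * Eh H (ν * n) :=
    Summable.of_norm_bounded (hsd.mul_left (2 * C0 * (√(ν : ℝ) * dv ν))) hone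
  -- splitting
  have hrho : ∀ n : ℕ, |rho n| ≤ 1 := by
    intro n
    unfold rho
    split_ifs
    · have hp01 : ∀ p ∈ n.primeFactors, 0 ≤ 1 - 1 / (p : ℝ) := by
        intro p hp
        have hp1 : (1 : ℝ) ≤ p := by exact_mod_cast (Nat.prime_of_mem_primeFactors hp).one_lt.le
        have : 1 / (p : ℝ) ≤ 1 := by rw [div_le_one (by linarith)]; exact hp1
        linarith
      rw [abs_of_nonneg (Finset.prod_nonneg hp01)]
      refine Finset.prod_le_one hp01 (fun p hp => ?_)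
      have : 0 ≤ 1 / (p : ℝ) := by positivity
      linarith
    · simp
  have hsr : Summable fun n : ℕ => bet f n * rho (ν * n) := by
    refine Summable.of_norm_bounded (summable_bet hC hU hf1 hf0) fun n => ?_
    rw [norm_mul, Real.norm_eq_abs, Real.norm_eq_abs]
    exact mul_le_of_le_one_right (abs_nonneg _) (hrho _)
  have hsplit : ∑' n : ℕ, bet f n * ∑' h : ℤ, H1.ah H h * chi h (ν * n) -
      5040 * H * ∑' n : ℕ, bet f n * rho (ν * n) = ∑' n : ℕ, bet f n * Eh H (ν * n) := by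
    rw [← tsum_mul_left, sub_eq_iff_eq_add, ← hsE.tsum_add (hsr.mul_left _)]
    refine tsum_congr fun n => ?_
    unfold Eh
    ring
  rw [hsplit]
  have hfin : |∑' n : ℕ, bet f n * Eh H (ν * n)| ≤
      2 * C0 * (√(ν : ℝ) * dv ν) * ∑' n : ℕ, dv (n + 1) ^ 2 *
        Real.exp (-π * ((n + 1 : ℕ) : ℝ) * U) := by
    rw [hsE.tsum_eq_zero_add, hb0, zero_mul, zero_add, ← tsum_mul_left]
    have hs1 : Summable fun n : ℕ => 2 * C0 * (√(ν : ℝ) * dv ν) *
        (dv (n + 1) ^ 2 * Real.exp (-π * ((n + 1 : ℕ) : ℝ) * U)) :=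
      ((summable_nat_add_iff 1).2 hsd).mul_left _
    have h9 : ‖∑' n : ℕ, bet f (n + 1) * Eh H (ν * (n + 1))‖ ≤
        ∑' n : ℕ, 2 * C0 * (√(ν : ℝ) * dv ν) *
          (dv (n + 1) ^ 2 * Real.exp (-π * ((n + 1 : ℕ) : ℝ) * U)) :=
      tsum_of_norm_bounded hs1.hasSum fun n => hone (n + 1)
    exact h9
  refine hfin.trans ?_
  have hθ : 0 < 1 / L := by positivity
  have hθ1 : 1 / L ≤ 1 := by rw [div_le_one (by linarith)]; exact hL
  have h5 := (hA (1 / L) U hθ hθ1 hU).2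
  have h6 : U ^ (-1 - 1 / L) ≤ Real.exp 1 / U := by
    have e : -1 - 1 / L = -1 + -(1 / L) := by ring
    rw [e, Real.rpow_add hU, Real.rpow_neg_one]
    have h7 : U ^ (-(1 / L)) ≤ Real.exp 1 := by
      calc U ^ (-(1 / L)) ≤ (Real.exp (-L)) ^ (-(1 / L)) :=
            Real.rpow_le_rpow_of_nonpos (Real.exp_pos _) hUL (by linarith)
        _ = Real.exp 1 := by
            rw [← Real.exp_mul]
            congr 1
            field_simp
    have e2 : Real.exp 1 / U = U⁻¹ * Real.exp 1 := div_eq_inv_mul _ _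
    rw [e2]
    exact mul_le_mul_of_nonneg_left h7 (by positivity)
  rw [one_div_one_div] at h5
  have h8 : ∑' n : ℕ, dv (n + 1) ^ 2 * Real.exp (-π * ((n + 1 : ℕ) : ℝ) * U) ≤
      C1 * L ^ A * (Real.exp 1 / U) := h5.trans (by gcongr)
  have hdν : 1 ≤ dv ν := one_le_dv hν.1
  have hd1 : dv ν ≤ dv ν ^ (A + 1) := le_self_pow₀ hdν (by omega)
  have hL1 : L ^ A ≤ L ^ (A + 1) := pow_le_pow_right₀ hL (by omega)
  have hdnn := hdvnn ν
  calc 2 * C0 * (√(ν : ℝ) * dv ν) * ∑' n : ℕ, dv (n + 1) ^ 2 *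
        Real.exp (-π * ((n + 1 : ℕ) : ℝ) * U)
      ≤ 2 * C0 * (√(ν : ℝ) * dv ν) * (C1 * L ^ A * (Real.exp 1 / U)) := by gcongr
    _ ≤ 2 * C0 * (√(ν : ℝ) * dv ν ^ (A + 1)) * (C1 * L ^ (A + 1) * (Real.exp 1 / U)) := by
        gcongr
    _ = (2 * C0 * C1 * Real.exp 1) * L ^ (A + 1) * (√(ν : ℝ) * dv ν ^ (A + 1)) / U := by
        field_simp
    _ ≤ max 1 (2 * C0 * C1 * Real.exp 1) * L ^ (A + 1) * (√(ν : ℝ) * dv ν ^ (A + 1)) / U := by
        gcongr
        exact le_max_right _ _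

end P004.H3
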